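import Vale.Agent.Lib.P181.FHOrbit

/-!
Orbit sums of arrays with few entries different from `z` lie in the span of the products of `b`
polarized elementary symmetric polynomials.
-/

namespace Vale.Agent.Lib.P181

open Finset MvPolynomial

set_option linter.unusedSectionVars false

variable {K : Type*} [Field K] {σ : Type*} [Fintype σ] [DecidableEq σ] {a b : ℕ} {z : σ}

/-- The orbit sum of an array: the rows are moved to the points `ρ s`. -/
noncomputable def arrOrb (K : Type*) [Field K] (z : σ) (f : Fin a → Fin b → σ) :
    MvPolynomial (Fin a × σ) K :=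
  ∑ ρ : Equiv.Perm (Fin a), ∏ s, ∏ j, vv K a z (ρ s) (f s j)

theorem arrOrb_eq_orb (f : Fin a → Fin b → σ) :
    arrOrb K z f = orb K (fun p : {p : Fin a × Fin b // f p.1 p.2 ≠ z} => f p.1.1 p.1.2)
      (fun p => p.1.1) := by
  unfold arrOrb orb pmon
  apply Finset.sum_congr rfl
  intro ρ _
  rw [← Finset.prod_product' (univ : Finset (Fin a)) (univ : Finset (Fin b))
    (fun s j => vv K a z (ρ s) (f s j)), Finset.univ_product_univ,
    ← Finset.prod_filter_mul_prod_filter_not univ (fun p : Fin a × Fin b => f p.1 p.2 ≠ z)]
  have h2 : (∏ p ∈ univ.filter (fun p : Fin a × Fin b => ¬ f p.1 p.2 ≠ z),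
      vv K a z (ρ p.1) (f p.1 p.2)) = 1 := by
    apply Finset.prod_eq_one
    intro p hp
    simp only [mem_filter, mem_univ, true_and, not_not] at hp
    rw [vv, if_pos hp]
  rw [h2, mul_one, Finset.prod_subtype (univ.filter fun p : Fin a × Fin b => f p.1 p.2 ≠ z)
      (p := fun p : Fin a × Fin b => f p.1 p.2 ≠ z) (fun p => by simp)]
  apply Finset.prod_congr rfl
  intro p _
  rw [vv, if_neg p.2]

theorem arrOrb_mem [CharZero K] (f : Fin a → Fin b → σ)
    (hf : (univ.filter fun p : Fin a × Fin b => f p.1 p.2 ≠ z).card ≤ b) :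
    arrOrb K z f ∈ GG K a z b := by
  rw [arrOrb_eq_orb]
  refine GG_mono ?_ (orb_mem _ _ _ _ (fun p => p.2) rfl)
  rw [Fintype.card_subtype]
  exact hf

/-- The product of the polarized elementary symmetric polynomials of a monomial basis vector of
`Sym^b (Sym^a V)`. -/
noncomputable def QQ (K : Type*) [Field K] (z : σ) (u : Sym (Sym σ a) b) :
    MvPolynomial (Fin a × σ) K :=
  (u.val.map (gen K a z)).prod

theorem gen_const : gen K a z (tupleSym fun _ => z) = 1 := by
  unfold gen
  have : univ.filter (fun c : Fin a → σ => tupleSym c = tupleSym fun _ => z) = {fun _ => z} := by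
    ext c
    simp only [mem_filter, mem_univ, true_and, mem_singleton]
    constructor
    · intro h
      funext s
      have h1 : (univ : Finset (Fin a)).val.map c = (univ : Finset (Fin a)).val.map fun _ => z :=
        congrArg Subtype.val h
      have h2 : c s ∈ (univ : Finset (Fin a)).val.map c :=
        Multiset.mem_map_of_mem c (Finset.mem_univ s)
      rw [h1, Multiset.mem_map] at h2
      obtain ⟨_, _, h3⟩ := h2
      exact h3.symm
    · rintro rfl; rfl
  rw [this, Finset.sum_singleton]
  unfold colMon
  apply Finset.prod_eq_one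
  intro s _
  rw [vv, if_pos rfl]

theorem GG_le_span : GG K a z b ≤ Submodule.span K (Set.range (QQ (b := b) K z)) := by
  unfold GG
  apply Submodule.span_mono
  rintro p ⟨l, hl, rfl⟩
  have hcard : Multiset.card ((l : Multiset (Sym σ a)) +
      Multiset.replicate (b - l.length) (tupleSym fun _ => z)) = b := by
    simp only [Multiset.card_add, Multiset.coe_card, Multiset.card_replicate]
    omega
  refine ⟨⟨_, hcard⟩, ?_⟩
  unfold QQ
  simp only [Multiset.map_add, Multiset.map_coe, Multiset.map_replicate, Multiset.prod_add,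
    Multiset.prod_coe, Multiset.prod_replicate, gen_const, one_pow, mul_one]

end Vale.Agent.Lib.P181
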