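import Vale.Agent.Lib.P181.FHArray

/-!
The exponent vector of an array and its basic properties.
-/

namespace Vale.Agent.Lib.P181

open Finset MvPolynomial

set_option linter.unusedSectionVars false

variable {K : Type*} [Field K] {σ : Type*} [Fintype σ] [DecidableEq σ] {a b : ℕ} {z : σ}

/-- The exponent vector of the monomial of an array (entries `z` are ignored). -/
noncomputable def dexp (z : σ) (f : Fin a → Fin b → σ) : (Fin a × σ) →₀ ℕ :=
  ∑ s, ∑ j, if f s j = z then 0 else Finsupp.single (s, f s j) 1

theorem vv_eq_monomial (s : Fin a) (x : σ) :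
    vv K a z s x = monomial (if x = z then 0 else Finsupp.single (s, x) 1) 1 := by
  unfold vv
  split_ifs
  · rfl
  · rfl

theorem arrMon_eq (f : Fin a → Fin b → σ) :
    (∏ s, ∏ j, vv K a z s (f s j)) = monomial (dexp z f) 1 := by
  unfold dexp
  rw [monomial_sum_one]
  apply Finset.prod_congr rfl
  intro s _
  rw [monomial_sum_one]
  apply Finset.prod_congr rfl
  intro j _
  exact vv_eq_monomial s (f s j)

theorem dexp_apply (f : Fin a → Fin b → σ) (s : Fin a) (y : σ) (hy : y ≠ z) :
    dexp z f (s, y) = (univ.filter fun j => f s j = y).card := by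
  unfold dexp
  rw [Finsupp.finsetSum_apply]
  rw [Finset.sum_eq_single s]
  · rw [Finsupp.finsetSum_apply, Finset.card_filter]
    apply Finset.sum_congr rfl
    intro j _
    by_cases h : f s j = z
    · rw [if_pos h, if_neg (by rw [h]; exact fun h' => hy h'.symm)]
      rfl
    · rw [if_neg h, Finsupp.single_apply]
      by_cases h2 : f s j = y
      · rw [if_pos (by rw [h2]), if_pos h2]
      · rw [if_neg (fun h' => h2 (Prod.mk.inj h').2), if_neg h2]
  · intro s' _ hs'
    rw [Finsupp.finsetSum_apply]
    apply Finset.sum_eq_zero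
    intro j _
    by_cases h : f s' j = z
    · rw [if_pos h]; rfl
    · rw [if_neg h, Finsupp.single_apply, if_neg (fun h' => hs' (Prod.mk.inj h').1)]
  · intro h; exact absurd (Finset.mem_univ s) h

theorem dexp_perm (f : Fin a → Fin b → σ) (τ : Fin a → Equiv.Perm (Fin b)) :
    dexp z (fun s j => f s (τ s j)) = dexp z f := by
  unfold dexp
  apply Finset.sum_congr rfl
  intro s _
  exact Equiv.sum_comp (τ s) (fun j => if f s j = z then 0 else Finsupp.single (s, f s j) 1)

theorem fiber_card_total (w : Fin b → σ) :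
    (univ.filter fun j => w j = z).card +
      ∑ y ∈ (univ : Finset σ).erase z, (univ.filter fun j => w j = y).card = b := by
  rw [Finset.add_sum_erase _ (fun y => (univ.filter fun j => w j = y).card) (Finset.mem_univ z)]
  rw [← Finset.card_eq_sum_card_fiberwise (f := w) (s := univ) (t := univ)
    (fun j _ => Finset.mem_coe.mpr (Finset.mem_univ _))]
  simp

theorem fiber_card_of_dexp (f g : Fin a → Fin b → σ) (h : dexp z g = dexp z f) (s : Fin a)
    (y : σ) : (univ.filter fun j => f s j = y).card = (univ.filter fun j => g s j = y).card := by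
  have hne : ∀ y, y ≠ z →
      (univ.filter fun j => f s j = y).card = (univ.filter fun j => g s j = y).card := by
    intro y hy
    rw [← dexp_apply f s y hy, ← dexp_apply g s y hy, h]
  by_cases hy : y = z
  · subst hy
    have h1 := fiber_card_total (z := y) (f s)
    have h2 := fiber_card_total (z := y) (g s)
    have h3 : (∑ y' ∈ (univ : Finset σ).erase y, (univ.filter fun j => f s j = y').card) =
        ∑ y' ∈ (univ : Finset σ).erase y, (univ.filter fun j => g s j = y').card :=
      Finset.sum_congr rfl (fun y' hy' => hne y' (Finset.ne_of_mem_erase hy'))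
    omega
  · exact hne y hy

theorem exists_rowPerm_of_dexp (f g : Fin a → Fin b → σ) (h : dexp z g = dexp z f) :
    ∃ τ : Fin a → Equiv.Perm (Fin b), ∀ s j, f s (τ s j) = g s j := by
  have : ∀ s, ∃ ρ : Equiv.Perm (Fin b), ∀ j, f s (ρ j) = g s j := fun s =>
    exists_perm_of_fiber_card (f s) (g s) (fun y => fiber_card_of_dexp f g h s y)
  choose τ hτ using this
  exact ⟨τ, hτ⟩

theorem tupleSym_comp_perm {α : Type*} {n : ℕ} (w : Fin n → α) (ρ : Equiv.Perm (Fin n)) :
    tupleSym (fun j => w (ρ j)) = tupleSym w := by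
  apply Subtype.ext
  show (univ : Finset (Fin n)).val.map (fun j => w (ρ j)) = (univ : Finset (Fin n)).val.map w
  have : (fun j => w (ρ j)) = w ∘ ρ := rfl
  rw [this, ← Multiset.map_map, Multiset.map_univ_val_equiv]

theorem rowMonomial_of_dexp (f g : Fin a → Fin b → σ) (h : dexp z g = dexp z f) :
    rowMonomial g = rowMonomial f := by
  obtain ⟨τ, hτ⟩ := exists_rowPerm_of_dexp f g h
  unfold rowMonomial
  congr 1
  funext s
  rw [← tupleSym_comp_perm (f s) (τ s)]
  congr 1
  funext j
  exact (hτ s j).symm

theorem rowMonomial_perm (f : Fin a → Fin b → σ) (ρ : Equiv.Perm (Fin a)) :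
    rowMonomial (fun s j => f (ρ s) j) = rowMonomial f :=
  tupleSym_comp_perm (fun s => tupleSym (f s)) ρ

/-- The number of families of row permutations fixing the array. -/
noncomputable def rr (f : Fin a → Fin b → σ) : ℕ :=
  (univ.filter fun τ : Fin a → Equiv.Perm (Fin b) => ∀ s j, f s (τ s j) = f s j).card

theorem rr_pos (f : Fin a → Fin b → σ) : 0 < rr f := by
  unfold rr
  apply Finset.card_pos.mpr
  exact ⟨fun _ => 1, by simp⟩

theorem card_rowPerm (f g : Fin a → Fin b → σ) (h : dexp z g = dexp z f) :
    (univ.filter fun τ : Fin a → Equiv.Perm (Fin b) => ∀ s j, f s (τ s j) = g s j).card =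
      rr f := by
  obtain ⟨τ₀, hτ₀⟩ := exists_rowPerm_of_dexp f g h
  have h1 : (univ.filter fun τ : Fin a → Equiv.Perm (Fin b) => ∀ s j, f s (τ s j) = g s j) =
      Fintype.piFinset (fun s => univ.filter fun ρ : Equiv.Perm (Fin b) =>
        ∀ j, f s (ρ j) = g s j) := by
    ext τ; simp [Fintype.mem_piFinset]
  have h2 : (univ.filter fun τ : Fin a → Equiv.Perm (Fin b) => ∀ s j, f s (τ s j) = f s j) =
      Fintype.piFinset (fun s => univ.filter fun ρ : Equiv.Perm (Fin b) =>
        ∀ j, f s (ρ j) = f s j) := by
    ext τ; simp [Fintype.mem_piFinset]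
  unfold rr
  rw [h1, h2, Fintype.card_piFinset, Fintype.card_piFinset]
  apply Finset.prod_congr rfl
  intro s _
  convert card_perm_eq (f s) (g s) (τ₀ s) (hτ₀ s)

end Vale.Agent.Lib.P181
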