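import Vale.Agent.Lib.P181.FHCoeffA

/-!
Coefficients: of the Foulkes-Howe image of a monomial, of the products of polarized elementary
symmetric polynomials, and of the orbit sums.
-/

namespace Vale.Agent.Lib.P181

open Finset MvPolynomial

set_option linter.unusedSectionVars false

variable {K : Type*} [Field K] {σ : Type*} [Fintype σ] [DecidableEq σ] {a b : ℕ} {z : σ}

/-- The arrays with column monomial `u` and the same exponent vector as `f`. -/
noncomputable def arrSet (z : σ) (f : Fin a → Fin b → σ) (u : Sym (Sym σ a) b) :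
    Finset (Fin a → Fin b → σ) :=
  univ.filter fun g => colMonomial g = u ∧ dexp z g = dexp z f

theorem foulkesHowe_apply (f : Fin a → Fin b → σ) (u : Sym (Sym σ a) b) :
    (foulkesHowe K f) u = ((rr f : ℕ) : K) * (((arrSet z f u).card : ℕ) : K) := by
  classical
  unfold foulkesHowe
  rw [Finsupp.finsetSum_apply]
  simp_rw [Finsupp.single_apply]
  rw [Finset.sum_boole, ← Nat.cast_mul]
  congr 1
  rw [Finset.card_eq_sum_card_fiberwise (f := fun τ : Fin a → Equiv.Perm (Fin b) =>
    fun s j => f s (τ s j)) (t := arrSet z f u)]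
  · have key : ∀ g ∈ arrSet z f u,
        ((univ.filter fun τ : Fin a → Equiv.Perm (Fin b) =>
          colMonomial (fun i j => f i (τ i j)) = u).filter
            fun τ => (fun s j => f s (τ s j)) = g).card = rr f := by
      intro g hg
      simp only [arrSet, mem_filter, mem_univ, true_and] at hg
      rw [← card_rowPerm f g hg.2]
      congr 1
      ext τ
      simp only [mem_filter, mem_univ, true_and]
      constructor
      · rintro ⟨_, h⟩ s j
        exact congrFun (congrFun h s) j
      · intro h
        have : (fun s j => f s (τ s j)) = g := by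
          funext s j; exact h s j
        exact ⟨by rw [this]; exact hg.1, this⟩
    rw [Finset.sum_congr rfl key, Finset.sum_const, smul_eq_mul, mul_comm]
  · intro τ hτ
    simp only [coe_filter, mem_univ, true_and, Set.mem_setOf_eq] at hτ
    simp only [arrSet, coe_filter, mem_univ, true_and, Set.mem_setOf_eq]
    exact ⟨hτ, dexp_perm f τ⟩

theorem QQ_eq_prod (u : Sym (Sym σ a) b) (D : Fin b → Sym σ a) (hD : tupleSym D = u) :
    QQ K z u = ∏ j, gen K a z (D j) := by
  unfold QQ
  have : u.val = (univ : Finset (Fin b)).val.map D := (congrArg Subtype.val hD).symm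
  rw [this, Multiset.map_map]
  rfl

theorem QQ_coeff_aux (f : Fin a → Fin b → σ) (u : Sym (Sym σ a) b) (D : Fin b → Sym σ a)
    (hD : tupleSym D = u) :
    coeff (dexp z f) (QQ K z u) =
      (((univ.filter fun g : Fin a → Fin b → σ =>
        (∀ j, tupleSym (fun s => g s j) = D j) ∧ dexp z g = dexp z f).card : ℕ) : K) := by
  classical
  rw [QQ_eq_prod u D hD]
  unfold gen
  rw [Finset.prod_univ_sum, coeff_sum]
  have hmon : ∀ h : Fin b → Fin a → σ, (∏ j, colMon K a z (h j)) =
      monomial (dexp z (fun s j => h j s)) 1 := by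
    intro h
    unfold colMon
    rw [Finset.prod_comm]
    exact arrMon_eq (fun s j => h j s)
  simp_rw [hmon, coeff_monomial]
  rw [Finset.sum_boole]
  congr 1
  refine Finset.card_bij' (fun h _ => fun s j => h j s) (fun g _ => fun j s => g s j)
    ?_ ?_ ?_ ?_
  · intro h hh
    simp only [mem_filter, Fintype.mem_piFinset, mem_univ, true_and] at hh ⊢
    exact ⟨fun j => hh.1 j, hh.2⟩
  · intro g hg
    simp only [mem_filter, Fintype.mem_piFinset, mem_univ, true_and] at hg ⊢
    exact ⟨fun j => hg.1 j, hg.2⟩
  · intro h _; rfl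
  · intro g _; rfl

theorem QQ_coeff (f : Fin a → Fin b → σ) (u : Sym (Sym σ a) b) :
    (((univ.filter fun D : Fin b → Sym σ a => tupleSym D = u).card : ℕ) : K) *
        coeff (dexp z f) (QQ K z u) = (((arrSet z f u).card : ℕ) : K) := by
  classical
  have h1 : (arrSet z f u).card =
      ∑ D ∈ univ.filter (fun D : Fin b → Sym σ a => tupleSym D = u),
        ((arrSet z f u).filter fun g => (fun j => tupleSym (fun s => g s j)) = D).card := by
    apply Finset.card_eq_sum_card_fiberwise
    intro g hg
    simp only [arrSet, coe_filter, mem_univ, true_and, Set.mem_setOf_eq] at hg ⊢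
    exact hg.1
  rw [h1, Nat.cast_sum]
  have h2 : ∀ D ∈ univ.filter (fun D : Fin b → Sym σ a => tupleSym D = u),
      ((((arrSet z f u).filter fun g => (fun j => tupleSym (fun s => g s j)) = D).card : ℕ) : K) =
        coeff (dexp z f) (QQ K z u) := by
    intro D hD
    simp only [mem_filter, mem_univ, true_and] at hD
    rw [QQ_coeff_aux f u D hD]
    congr 2
    ext g
    simp only [arrSet, mem_filter, mem_univ, true_and]
    constructor
    · rintro ⟨⟨_, h⟩, h'⟩
      exact ⟨fun j => congrFun h' j, h⟩
    · rintro ⟨h, h'⟩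
      have hcc : (fun j => tupleSym (fun s => g s j)) = D := funext h
      refine ⟨⟨?_, h'⟩, hcc⟩
      rw [← hD, ← hcc]
      rfl
  rw [Finset.sum_congr rfl h2, Finset.sum_const, nsmul_eq_mul]

theorem arrOrb_eq_sum (f : Fin a → Fin b → σ) :
    arrOrb K z f = ∑ ρ : Equiv.Perm (Fin a),
      monomial (dexp z (fun s j => f (ρ.symm s) j)) 1 := by
  unfold arrOrb
  apply Finset.sum_congr rfl
  intro ρ _
  rw [← arrMon_eq (K := K)]
  rw [← Equiv.prod_comp ρ (fun s' => ∏ j, vv K a z s' (f (ρ.symm s') j))]
  simp

theorem arrOrb_coeff (f f' : Fin a → Fin b → σ) :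
    coeff (dexp z f') (arrOrb K z f) =
      (((univ.filter fun ρ : Equiv.Perm (Fin a) =>
        dexp z (fun s j => f (ρ.symm s) j) = dexp z f').card : ℕ) : K) := by
  classical
  rw [arrOrb_eq_sum, coeff_sum]
  simp_rw [coeff_monomial]
  rw [Finset.sum_boole]

theorem exists_tuple {α : Type*} {n : ℕ} (u : Sym α n) : ∃ D : Fin n → α, tupleSym D = u := by
  obtain ⟨l, hl⟩ := Quotient.exists_rep u.val
  have hlen : l.length = n := by
    have := u.2
    rw [← hl] at this
    simpa using this
  refine ⟨fun j => l.get (j.cast hlen.symm), ?_⟩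
  apply Subtype.ext
  show (univ : Finset (Fin n)).val.map (fun j => l.get (j.cast hlen.symm)) = u.val
  rw [← hl]
  subst hlen
  simp

end Vale.Agent.Lib.P181
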