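import Mathlib

/-!
The Foulkes-Howe map on monomial basis vectors.

`V` has basis indexed by `σ`.  A monomial basis vector of `Sym^a (Sym^b V)` is a product of `a`
monomials of degree `b`, i.e. a multiset of `a` multisets of size `b` in `σ`; it is presented by
an `a × b` array `f : Fin a → Fin b → σ` of basis vectors (rows are the degree `b` monomials).
`Sym^b (Sym^a V)` is modelled as the free module on its monomial basis
`Sym (Sym σ a) b` (multisets of `b` monomials of degree `a`).
-/

namespace Vale.Agent.Lib.P181

open Finset

variable {σ : Type*}

theorem card_map_univ_fin {α : Type*} (n : ℕ) (g : Fin n → α) :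
    ((univ : Finset (Fin n)).val.map g).card = n := by
  rw [Multiset.card_map]
  exact (Finset.card_univ (α := Fin n)).trans (Fintype.card_fin n)

/-- The multiset of the values of a tuple, as an element of the symmetric power. -/
def tupleSym {α : Type*} {n : ℕ} (g : Fin n → α) : Sym α n :=
  ⟨(univ : Finset (Fin n)).val.map g, card_map_univ_fin n g⟩

/-- The monomial basis vector of `Sym^a (Sym^b V)` given by the rows of the array `f`. -/
def rowMonomial {a b : ℕ} (f : Fin a → Fin b → σ) : Sym (Sym σ b) a :=
  tupleSym fun i => tupleSym (f i)

/-- The monomial basis vector of `Sym^b (Sym^a V)` given by the columns of the array `f`. -/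
def colMonomial {a b : ℕ} (f : Fin a → Fin b → σ) : Sym (Sym σ a) b :=
  tupleSym fun j => tupleSym fun i => f i j

/-- The Foulkes-Howe map `Ψ_{a,b,V}` evaluated at the monomial basis vector of
`Sym^a (Sym^b V)` presented by the array `f`: permute within the rows in all possible ways and
multiply along the columns. -/
noncomputable def foulkesHowe (K : Type*) [Semiring K] {a b : ℕ}
    (f : Fin a → Fin b → σ) : Sym (Sym σ a) b →₀ K :=
  ∑ τ : Fin a → Equiv.Perm (Fin b), Finsupp.single (colMonomial fun i j => f i (τ i j)) 1

end Vale.Agent.Lib.P181
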