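import Mathlib

/-!
The representation `Sym^a (Sym^b V)` of `gl(V)` in its monomial model, and its highest weight
vectors.

`V` has a basis `e_x` indexed by `σ`.  The monomials of degree `b` in the `e_x` (a basis of
`Sym^b V`) are the multisets `t : Sym σ b`, and `Sym (Sym^b V)` is the polynomial ring
`MvPolynomial (Sym σ b) K` in the variables `X_t`; `Sym^a (Sym^b V)` is its homogeneous part of
degree `a`.
-/

namespace Vale.Agent.Lib.P181

/-- Replace one occurrence of `y` in the monomial `t` by `x` (nothing happens if `y` does not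
occur in `t`). -/
def symReplace {σ : Type*} [DecidableEq σ] {b : ℕ} (t : Sym σ b) (x y : σ) : Sym σ b :=
  if h : y ∈ t.val then
    ⟨x ::ₘ t.val.erase y, by
      rw [Multiset.card_cons, Multiset.card_erase_add_one h]
      exact t.2⟩
  else t

/-- The action on `Sym (Sym^b V)` of the matrix unit `E_{x y}` of `gl(V)` (which sends `e_y` to
`e_x` and kills the other basis vectors): the derivation of the polynomial ring with
`X_t ↦ (multiplicity of y in t) • X_{t with one y replaced by x}`. -/
noncomputable def glAct (K : Type*) [Field K] {σ : Type*} [DecidableEq σ] (b : ℕ) (x y : σ) :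
    Derivation K (MvPolynomial (Sym σ b) K) (MvPolynomial (Sym σ b) K) :=
  MvPolynomial.mkDerivation K fun t =>
    (Multiset.count y t.val : K) • MvPolynomial.X (symReplace t x y)

/-- The highest weight vectors of weight `lam` in `Sym^a (Sym^b V)`, `V = K^n`: the homogeneous
polynomials of degree `a` in the `X_t` which are weight vectors of weight `lam` (eigenvectors of
each `E_{x x}` with eigenvalue `lam x`) and are killed by the raising operators `E_{x y}`,
`x < y`. -/
noncomputable def hwSpace (K : Type*) [Field K] (n a b : ℕ) (lam : Fin n → ℕ) :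
    Submodule K (MvPolynomial (Sym (Fin n) b) K) where
  carrier := {p | p.IsHomogeneous a ∧ (∀ x, glAct K b x x p = (lam x : K) • p) ∧
    ∀ x y, x < y → glAct K b x y p = 0}
  add_mem' := by
    rintro p q ⟨hp1, hp2, hp3⟩ ⟨hq1, hq2, hq3⟩
    refine ⟨hp1.add hq1, fun x => ?_, fun x y hxy => ?_⟩
    · rw [map_add, hp2 x, hq2 x, smul_add]
    · rw [map_add, hp3 x y hxy, hq3 x y hxy, add_zero]
  zero_mem' := by
    refine ⟨MvPolynomial.isHomogeneous_zero _ _ _, fun x => ?_, fun x y _ => ?_⟩
    · rw [map_zero, smul_zero]
    · rw [map_zero]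
  smul_mem' := by
    rintro c p ⟨hp1, hp2, hp3⟩
    refine ⟨(MvPolynomial.homogeneousSubmodule _ K a).smul_mem c hp1, fun x => ?_,
      fun x y hxy => ?_⟩
    · rw [Derivation.map_smul, hp2 x, smul_comm]
    · rw [Derivation.map_smul, hp3 x y hxy, smul_zero]

end Vale.Agent.Lib.P181
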