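import Vale.Agent.Lib.P181.FHPoly
import Vale.Agent.Lib.P181.FHRep

/-!
The action of the matrix units on the products of the rows of an array, and its compatibility
with the Foulkes-Howe image.
-/

namespace Vale.Agent.Lib.P181

open Finset MvPolynomial

set_option linter.unusedSectionVars false

variable {K : Type*} [Field K] {σ : Type*} [DecidableEq σ] {a b : ℕ}

/-- Change one entry of an array. -/
def upd {α β γ : Type*} [DecidableEq α] [DecidableEq β] (f : α → β → γ) (p : α × β) (x : γ) :
    α → β → γ :=
  fun s j => if (s, j) = p then x else f s j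

theorem upd_self {α β γ : Type*} [DecidableEq α] [DecidableEq β] (f : α → β → γ) (p : α × β) :
    upd f p (f p.1 p.2) = f := by
  funext s j
  unfold upd
  split_ifs with h
  · rw [← h]
  · rfl

theorem count_tupleSym (w : Fin b → σ) (y : σ) :
    Multiset.count y (tupleSym w).val = (univ.filter fun j => w j = y).card := by
  show Multiset.count y ((univ : Finset (Fin b)).val.map w) = _
  rw [Multiset.count_map]
  simp only [Finset.card, Finset.filter_val]
  congr 2
  funext j
  exact propext eq_comm

theorem symReplace_val (t : Sym σ b) (x y : σ) (h : y ∈ t.val) :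
    (symReplace t x y).val = x ::ₘ t.val.erase y := by
  have h1 : symReplace t x y = ⟨x ::ₘ t.val.erase y, by
      rw [Multiset.card_cons, Multiset.card_erase_add_one h]
      exact t.2⟩ := dif_pos h
  rw [h1]

theorem symReplace_tupleSym (w : Fin b → σ) (x : σ) (j : Fin b) :
    symReplace (tupleSym w) x (w j) = tupleSym (Function.update w j x) := by
  have hmem : w j ∈ (tupleSym w).val := by
    show w j ∈ (univ : Finset (Fin b)).val.map w
    exact Multiset.mem_map.mpr ⟨j, Finset.mem_univ j, rfl⟩
  apply Subtype.ext
  rw [symReplace_val _ _ _ hmem]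
  show x ::ₘ ((univ : Finset (Fin b)).val.map w).erase (w j) =
    (univ : Finset (Fin b)).val.map (Function.update w j x)
  have huniv : (univ : Finset (Fin b)).val = j ::ₘ (univ : Finset (Fin b)).val.erase j :=
    (Multiset.cons_erase (Finset.mem_univ j)).symm
  have hnd : (univ : Finset (Fin b)).val.Nodup := (univ : Finset (Fin b)).nodup
  rw [huniv, Multiset.map_cons, Multiset.erase_cons_head, Multiset.map_cons,
    Function.update_self]
  congr 1
  apply Multiset.map_congr rfl
  intro i hi
  have hij : i ≠ j := ((Multiset.Nodup.mem_erase_iff hnd).mp hi).1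
  rw [Function.update_of_ne hij]

theorem glAct_X_tupleSym (w : Fin b → σ) (x y : σ) :
    glAct K b x y (X (tupleSym w)) =
      ∑ j ∈ univ.filter (fun j => w j = y), X (tupleSym (Function.update w j x)) := by
  unfold glAct
  rw [mkDerivation_X, count_tupleSym]
  rw [Finset.sum_congr rfl (g := fun _ => X (symReplace (tupleSym w) x y))]
  · rw [Finset.sum_const, Nat.cast_smul_eq_nsmul]
  · intro j hj
    rw [Finset.mem_filter] at hj
    rw [← hj.2, symReplace_tupleSym]

theorem derivation_prod {R A : Type*} [CommRing R] [CommRing A] [Algebra R A]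
    (D : Derivation R A A) {ι : Type*} [DecidableEq ι] (S : Finset ι) (g : ι → A) :
    D (∏ i ∈ S, g i) = ∑ i ∈ S, (∏ i' ∈ S.erase i, g i') * D (g i) := by
  induction S using Finset.induction_on with
  | empty => simp
  | insert i S hi ih =>
    rw [Finset.prod_insert hi, Derivation.leibniz, ih, Finset.sum_insert hi,
      Finset.erase_insert hi, smul_eq_mul, smul_eq_mul, Finset.mul_sum, add_comm]
    congr 1
    apply Finset.sum_congr rfl
    intro k hk
    have hki : k ≠ i := fun h => hi (h ▸ hk)
    rw [Finset.erase_insert_of_ne hki.symm, Finset.prod_insert (by simp [hi]), mul_assoc]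

theorem glAct_rowPoly (f : Fin a → Fin b → σ) (x y : σ) :
    glAct K b x y (rowPoly K f) =
      ∑ p ∈ univ.filter (fun p : Fin a × Fin b => f p.1 p.2 = y), rowPoly K (upd f p x) := by
  unfold rowPoly
  rw [derivation_prod]
  simp_rw [glAct_X_tupleSym, Finset.mul_sum]
  rw [← Finset.univ_product_univ, Finset.sum_filter, Finset.sum_product]
  apply Finset.sum_congr rfl
  intro s _
  rw [Finset.sum_filter]
  apply Finset.sum_congr rfl
  intro j _
  by_cases h : f s j = y
  · rw [if_pos h, if_pos h, ← Finset.mul_prod_erase univ _ (Finset.mem_univ s), mul_comm]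
    congr 1
    · congr 2
      funext j'
      unfold upd
      by_cases hj : j' = j
      · subst hj
        simp
      · rw [Function.update_of_ne hj, if_neg (by simp [hj])]
    · apply Finset.prod_congr rfl
      intro s' hs'
      have hne : s' ≠ s := Finset.ne_of_mem_erase hs'
      congr 2
      funext j'
      unfold upd
      rw [if_neg (by simp [hne])]
  · rw [if_neg h, if_neg h]

theorem glAct_diag_rowPoly (f : Fin a → Fin b → σ) (x : σ) :
    glAct K b x x (rowPoly K f) =
      (((univ.filter fun p : Fin a × Fin b => f p.1 p.2 = x).card : ℕ) : K) • rowPoly K f := by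
  rw [glAct_rowPoly, Finset.sum_congr rfl (g := fun _ => rowPoly K f), Finset.sum_const,
    Nat.cast_smul_eq_nsmul]
  intro p hp
  rw [Finset.mem_filter] at hp
  rw [← hp.2, upd_self]

/-- The action of a matrix unit commutes with the Foulkes-Howe image. -/
theorem comm_key (f : Fin a → Fin b → σ) (x y : σ) :
    ∑ p ∈ univ.filter (fun p : Fin a × Fin b => f p.1 p.2 = y), fhPoly K (upd f p x) =
      glAct K a x y (fhPoly K f) := by
  unfold fhPoly
  rw [map_sum, Finset.sum_comm]
  apply Finset.sum_congr rfl
  intro τ _
  rw [glAct_rowPoly]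
  symm
  refine Finset.sum_equiv
    (⟨fun q => (q.2, τ q.2 q.1), fun p => ((τ p.1).symm p.2, p.1), fun q => by simp,
      fun p => by simp⟩ : Fin b × Fin a ≃ Fin a × Fin b) ?_ ?_
  · intro q
    simp
  · intro q _
    congr 1
    funext j' s'
    unfold upd
    simp only [Equiv.coe_fn_mk]
    by_cases h : (j', s') = q
    · subst h
      simp
    · rw [if_neg h, if_neg]
      intro h'
      apply h
      have h1 : s' = q.2 := congrArg Prod.fst h'
      have h2 : τ s' j' = τ q.2 q.1 := congrArg Prod.snd h'
      subst h1
      exact Prod.ext ((τ q.2).injective h2) rfl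

end Vale.Agent.Lib.P181
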