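import Mathlib

/-!
Two functions on a finite type with the same fibre sizes differ by a permutation of the domain,
and the number of permutations carrying one to the other does not depend on the target.
-/

namespace Vale.Agent.Lib.P181

open Finset

set_option linter.unusedSectionVars false

variable {α β : Type*} [Fintype α] [DecidableEq α] [DecidableEq β]

theorem exists_perm_of_fiber_card (w w' : α → β)
    (h : ∀ y, (univ.filter fun i => w i = y).card = (univ.filter fun i => w' i = y).card) :
    ∃ ρ : Equiv.Perm α, ∀ i, w (ρ i) = w' i := by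
  classical
  have e : ∀ y, {i // w' i = y} ≃ {i // w i = y} := fun y =>
    Fintype.equivOfCardEq (by
      rw [Fintype.card_subtype, Fintype.card_subtype]
      exact (h y).symm)
  refine ⟨(Equiv.sigmaFiberEquiv w').symm.trans
    ((Equiv.sigmaCongrRight e).trans (Equiv.sigmaFiberEquiv w)), fun i => ?_⟩
  simp only [Equiv.trans_apply, Equiv.sigmaFiberEquiv, Equiv.coe_fn_symm_mk, Equiv.sigmaCongrRight,
    Equiv.coe_fn_mk]
  exact (e (w' i) ⟨i, rfl⟩).2

theorem exists_perm_of_map_eq (w w' : α → β)
    (h : (univ : Finset α).val.map w = (univ : Finset α).val.map w') :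
    ∃ ρ : Equiv.Perm α, ∀ i, w (ρ i) = w' i := by
  classical
  apply exists_perm_of_fiber_card
  intro y
  have h1 := congrArg (Multiset.count y) h
  rw [Multiset.count_map, Multiset.count_map] at h1
  simp only [Finset.card, Finset.filter_val]
  convert h1 using 3 <;> exact eq_comm

theorem card_perm_eq (w w' : α → β) (ρ₀ : Equiv.Perm α) (h₀ : ∀ i, w (ρ₀ i) = w' i) :
    (univ.filter fun ρ : Equiv.Perm α => ∀ i, w (ρ i) = w' i).card =
      (univ.filter fun ρ : Equiv.Perm α => ∀ i, w (ρ i) = w i).card := by
  classical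
  refine Finset.card_bij' (fun ρ _ => ρ * ρ₀⁻¹) (fun ρ _ => ρ * ρ₀) ?_ ?_ ?_ ?_
  · intro ρ hρ
    simp only [mem_filter, mem_univ, true_and] at hρ ⊢
    intro i
    have := hρ (ρ₀⁻¹ i)
    rw [← h₀] at this
    simpa using this
  · intro ρ hρ
    simp only [mem_filter, mem_univ, true_and] at hρ ⊢
    intro i
    rw [← h₀ i]
    simpa using hρ (ρ₀ i)
  · intro ρ _; simp [mul_assoc]
  · intro ρ _; simp [mul_assoc]

end Vale.Agent.Lib.P181
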