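import Vale.Agent.Lib.P181.FHDefs
import Vale.Agent.Lib.P181.FHPerm

/-!
The polynomial ring in the coordinates of `a` points, with the coordinate of the distinguished
letter `z` set to `1`; the polarized elementary symmetric polynomials `gen C` and the filtration
`GG n` spanned by products of at most `n` of them.
-/

namespace Vale.Agent.Lib.P181

open Finset MvPolynomial

set_option linter.unusedSectionVars false

variable (K : Type*) [Field K] {σ : Type*} [Fintype σ] [DecidableEq σ] (a : ℕ) (z : σ)

/-- The coordinate of letter `x` at point `s`; the letter `z` has coordinate `1`. -/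
noncomputable def vv (s : Fin a) (x : σ) : MvPolynomial (Fin a × σ) K :=
  if x = z then 1 else X (s, x)

/-- The monomial of a column `c`: the product over the points `s` of the coordinate of `c s`. -/
noncomputable def colMon (c : Fin a → σ) : MvPolynomial (Fin a × σ) K :=
  ∏ s, vv K a z s (c s)

/-- The polarized elementary symmetric polynomial attached to a multiset `C` of `a` letters. -/
noncomputable def gen (C : Sym σ a) : MvPolynomial (Fin a × σ) K :=
  ∑ c ∈ univ.filter (fun c : Fin a → σ => tupleSym c = C), colMon K a z c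

/-- Span of the products of at most `n` polarized elementary symmetric polynomials. -/
noncomputable def GG (n : ℕ) : Submodule K (MvPolynomial (Fin a × σ) K) :=
  Submodule.span K {p | ∃ l : List (Sym σ a), l.length ≤ n ∧ p = (l.map (gen K a z)).prod}

variable {K a z}

theorem one_mem_GG (n : ℕ) : (1 : MvPolynomial (Fin a × σ) K) ∈ GG K a z n :=
  Submodule.subset_span ⟨[], by simp, by simp⟩

theorem GG_mono {n m : ℕ} (h : n ≤ m) : GG K a z n ≤ GG K a z m := by
  apply Submodule.span_mono
  rintro p ⟨l, hl, rfl⟩
  exact ⟨l, hl.trans h, rfl⟩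

theorem gen_mem_GG (C : Sym σ a) : gen K a z C ∈ GG K a z 1 :=
  Submodule.subset_span ⟨[C], by simp, by simp⟩

theorem mul_mem_GG {n m : ℕ} {p q : MvPolynomial (Fin a × σ) K} (hp : p ∈ GG K a z n)
    (hq : q ∈ GG K a z m) : p * q ∈ GG K a z (n + m) := by
  have h := Submodule.mul_mem_mul hp hq
  unfold GG at h
  rw [Submodule.span_mul_span] at h
  refine Submodule.span_mono ?_ h
  rintro _ ⟨p, ⟨l, hl, rfl⟩, q, ⟨l', hl', rfl⟩, rfl⟩
  exact ⟨l ++ l', by simp; omega, by simp⟩

theorem natCast_mem_GG (n : ℕ) (c : ℕ) : (c : MvPolynomial (Fin a × σ) K) ∈ GG K a z n := by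
  have := (GG K a z n).smul_mem (c : K) (one_mem_GG (K := K) (a := a) (z := z) n)
  simpa [Algebra.smul_def] using this

theorem mul_mem_GG' {n m k : ℕ} {p q : MvPolynomial (Fin a × σ) K} (hp : p ∈ GG K a z n)
    (hq : q ∈ GG K a z m) (h : n + m ≤ k) : p * q ∈ GG K a z k :=
  GG_mono h (mul_mem_GG hp hq)

end Vale.Agent.Lib.P181
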