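import Vale.Agent.Lib.P181.FHStrong

/-!
The generalized (strengthened) Foulkes inequality for the spaces of highest weight vectors in the
stable range.
-/

namespace Vale.Agent.Lib.P181

open Finset MvPolynomial

set_option linter.unusedSectionVars false

variable {K : Type*} [Field K]

theorem hwSpace_finite (n a b : ℕ) (lam : Fin n → ℕ) :
    Module.Finite K (hwSpace K n a b lam) := by
  have hfin : Module.Finite K (MvPolynomial.homogeneousSubmodule (Sym (Fin n) b) K a) :=
    Module.Finite.iff_fg.mpr (MvPolynomial.homogeneousSubmodule_fg _ K a)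
  exact Submodule.finiteDimensional_of_le
    (S₂ := MvPolynomial.homogeneousSubmodule (Sym (Fin n) b) K a) (fun p hp => hp.1)

theorem sum_lam_of_ne_zero [CharZero K] {n a b : ℕ} (lam : Fin n → ℕ)
    (p : MvPolynomial (Sym (Fin n) b) K) (hp : p.IsHomogeneous a)
    (hw : ∀ x, glAct K b x x p = (lam x : K) • p) (hne : p ≠ 0) :
    ∑ x, lam x = a * b := by
  have h := euler p hp
  rw [Finset.sum_congr rfl (fun x _ => hw x), ← Finset.sum_smul] at h
  have h2 : (∑ x, (lam x : K)) = ((a * b : ℕ) : K) := by
    by_contra hcon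
    have h3 : (∑ x, (lam x : K) - ((a * b : ℕ) : K)) • p = 0 := by
      rw [sub_smul, h, sub_self]
    rcases smul_eq_zero.mp h3 with h4 | h4
    · exact hcon (sub_eq_zero.mp h4)
    · exact hne h4
  exact_mod_cast h2

theorem mem_hwSpace_of_partial [CharZero K] {n c d : ℕ} (lam : Fin n → ℕ) (z : Fin n)
    (q : MvPolynomial (Sym (Fin n) d) K) (hq : q.IsHomogeneous c)
    (hw : ∀ x, x ≠ z → glAct K d x x q = (lam x : K) • q)
    (hr : ∀ x y, x < y → glAct K d x y q = 0) (hsum : q = 0 ∨ ∑ x, lam x = c * d) :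
    q ∈ hwSpace K n c d lam := by
  refine ⟨hq, fun x => ?_, hr⟩
  by_cases hx : x = z
  · rcases hsum with h0 | hs
    · rw [h0, map_zero, smul_zero]
    · have h := euler q hq
      rw [← Finset.add_sum_erase _ _ (Finset.mem_univ x)] at h
      rw [Finset.sum_congr rfl (fun y hy => hw y (hx ▸ Finset.ne_of_mem_erase hy)),
        ← Finset.sum_smul] at h
      have hs' : ((c * d : ℕ) : K) = (lam x : K) + ∑ y ∈ univ.erase x, (lam y : K) := by
        rw [← hs, ← Finset.add_sum_erase _ _ (Finset.mem_univ x)]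
        push_cast
        rfl
      rw [hs', add_smul] at h
      exact add_right_cancel h
  · exact hw x hx

theorem hw_le_outer [CharZero K] (n a c d k : ℕ) (hac : a ≤ c) (hab : a * (d + k) = c * d)
    (lam : Fin n → ℕ) (z : Fin n) (hz : ∀ x y : Fin n, x < y → y ≠ z)
    (hlam : ∑ x ∈ univ.erase z, lam x ≤ d) :
    Module.finrank K (hwSpace K n a (d + k) lam) ≤ Module.finrank K (hwSpace K n c d lam) := by
  have hfin := hwSpace_finite (K := K) n c d lam
  refine finrank_le_of_rel (hwSpace K n a (d + k) lam) (hwSpace K n c d lam)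
    (LinearMap.mulLeft K ((X (zrow z (d + k)) : MvPolynomial (Sym (Fin n) (d + k)) K) ^ (c - a)))
    (Pad K z k d).toLinearMap ?_ Pad_injective ?_
  · intro p q h
    exact mul_left_cancel₀ (pow_ne_zero _ (X_ne_zero _)) h
  · rintro p ⟨hp1, hp2, hp3⟩
    obtain ⟨p', rfl⟩ := mem_range_Pad lam z hlam p hp1 (fun x _ => hp2 x)
    have hp'1 : p'.IsHomogeneous a :=
      (MvPolynomial.IsHomogeneous.rename_isHomogeneous_iff padSym_injective).mp hp1
    have hp'2 : ∀ x, x ≠ z → glAct K d x x p' = (lam x : K) • p' := by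
      intro x hx
      apply Pad_injective (K := K) (z := z) (k := k)
      rw [Pad_glAct x x hx, hp2 x, map_smul]
    have hp'3 : ∀ x y, x < y → glAct K d x y p' = 0 := by
      intro x y hxy
      apply Pad_injective (K := K) (z := z) (k := k)
      rw [Pad_glAct x y (hz x y hxy), hp3 x y hxy, map_zero]
    refine ⟨X (zrow z d) ^ (c - a) * p', ?_, ?_⟩
    · apply mem_hwSpace_of_partial lam z
      · have h := ((isHomogeneous_X K (zrow z d)).pow (c - a)).mul hp'1
        have e : 1 * (c - a) + a = c := by omega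
        rw [e] at h
        exact h
      · intro x hx
        rw [glAct_zrow_mul x x hx, hp'2 x hx, mul_smul_comm]
      · intro x y hxy
        rw [glAct_zrow_mul x y (hz x y hxy), hp'3 x y hxy, mul_zero]
      · by_cases h0 : p' = 0
        · left
          rw [h0, mul_zero]
        · right
          have hne : Pad K z k d p' ≠ 0 := fun h =>
            h0 (Pad_injective (K := K) (z := z) (k := k) (by rw [h, map_zero]))
          rw [sum_lam_of_ne_zero lam _ hp1 hp2 hne, hab]
    · show X (zrow z (d + k)) ^ (c - a) * Pad K z k d p' =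
        Pad K z k d (X (zrow z d) ^ (c - a) * p')
      rw [map_mul, map_pow]
      congr 2
      unfold Pad
      rw [rename_X, padSym_zrow]

theorem exists_quot_rowPoly {σ : Type*} [DecidableEq σ] [Fintype σ] {a b c k : ℕ} {z : σ}
    (hcb : c ≤ b) (F : Fin b → Fin a → σ)
    (hF : (univ.filter fun q : Fin b × Fin a => F q.1 q.2 ≠ z).card ≤ c) :
    ∃ r : MvPolynomial (Sym σ (a + k)) K, r.IsHomogeneous c ∧
      Pad K z k a (rowPoly K F) = X (zrow z (a + k)) ^ (b - c) * r := by
  classical
  have hSc : (univ.filter (fun s : Fin b => ¬ ∀ j, F s j = z)).card ≤ c := by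
    refine le_trans ?_ hF
    apply Finset.card_le_card_of_surjOn (fun q : Fin b × Fin a => q.1)
    intro s hs
    simp only [coe_filter, mem_univ, true_and, Set.mem_setOf_eq, not_forall] at hs
    obtain ⟨j, hj⟩ := hs
    refine ⟨(s, j), ?_, rfl⟩
    simp only [coe_filter, mem_univ, true_and, Set.mem_setOf_eq]
    exact hj
  have hcard : (univ.filter (fun s : Fin b => ∀ j, F s j = z)).card +
      (univ.filter (fun s : Fin b => ¬ ∀ j, F s j = z)).card = b := by
    have h := Finset.card_filter_add_card_filter_not (s := (univ : Finset (Fin b)))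
      (fun s => ∀ j, F s j = z)
    rw [Finset.card_univ, Fintype.card_fin] at h
    exact h
  refine ⟨X (zrow z (a + k)) ^ ((univ.filter (fun s : Fin b => ∀ j, F s j = z)).card - (b - c)) *
    ∏ s ∈ univ.filter (fun s : Fin b => ¬ ∀ j, F s j = z),
      X (padSym z k (tupleSym (F s))), ?_, ?_⟩
  · have h1 := (isHomogeneous_X K (zrow z (a + k))).pow
      ((univ.filter (fun s : Fin b => ∀ j, F s j = z)).card - (b - c))
    have h2 := IsHomogeneous.prod (univ.filter (fun s : Fin b => ¬ ∀ j, F s j = z))
      (fun s => (X (padSym z k (tupleSym (F s))) : MvPolynomial (Sym σ (a + k)) K))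
      (fun _ => 1) (fun s _ => isHomogeneous_X K _)
    have h3 := h1.mul h2
    have e : 1 * ((univ.filter (fun s : Fin b => ∀ j, F s j = z)).card - (b - c)) +
        ∑ _s ∈ univ.filter (fun s : Fin b => ¬ ∀ j, F s j = z), 1 = c := by
      rw [Finset.sum_const, smul_eq_mul, mul_one]
      omega
    rw [e] at h3
    exact h3
  · have hprodS : ∏ s ∈ univ.filter (fun s : Fin b => ∀ j, F s j = z),
        (X (padSym z k (tupleSym (F s))) : MvPolynomial (Sym σ (a + k)) K) =
        X (zrow z (a + k)) ^ (univ.filter (fun s : Fin b => ∀ j, F s j = z)).card := by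
      rw [Finset.prod_congr rfl (g := fun _ => X (zrow z (a + k)))]
      · rw [Finset.prod_const]
      · intro s hs
        simp only [mem_filter, mem_univ, true_and] at hs
        have hFs : F s = fun _ => z := funext hs
        rw [hFs, tupleSym_const, padSym_zrow]
    have hpad : Pad K z k a (rowPoly K F) =
        ∏ s : Fin b, (X (padSym z k (tupleSym (F s))) : MvPolynomial (Sym σ (a + k)) K) := by
      unfold rowPoly Pad
      rw [map_prod]
      apply Finset.prod_congr rfl
      intro s _
      rw [rename_X]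
    rw [hpad, ← Finset.prod_filter_mul_prod_filter_not univ (fun s : Fin b => ∀ j, F s j = z),
      hprodS, ← mul_assoc, ← pow_add]
    congr 2
    omega

theorem exists_quot [CharZero K] {σ : Type*} [DecidableEq σ] [Fintype σ] {a b c k : ℕ}
    (lam : σ → ℕ) (z : σ) (hcb : c ≤ b) (hlam : ∑ x ∈ univ.erase z, lam x ≤ c)
    (p : MvPolynomial (Sym σ a) K) (hp : p.IsHomogeneous b)
    (hw : ∀ x, x ≠ z → glAct K a x x p = (lam x : K) • p) :
    ∃ q : MvPolynomial (Sym σ (a + k)) K, q.IsHomogeneous c ∧
      Pad K z k a p = X (zrow z (a + k)) ^ (b - c) * q := by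
  classical
  have hex : ∀ m : {m // m ∈ p.support}, ∃ r : MvPolynomial (Sym σ (a + k)) K,
      r.IsHomogeneous c ∧
        Pad K z k a (monomial m.1 1) = X (zrow z (a + k)) ^ (b - c) * r := by
    intro m
    have hdeg : m.1.degree = b := by
      rw [Finsupp.degree_eq_weight_one]
      exact hp (mem_support_iff.mp m.2)
    obtain ⟨F, hF⟩ := exists_array (K := K) m.1 hdeg
    rw [← hF]
    apply exists_quot_rowPoly hcb F
    rw [card_ne_of_weight lam z p hp hw m.1 m.2 F hF]
    exact hlam
  choose r hr1 hr2 using hex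
  refine ⟨∑ m : {m // m ∈ p.support}, coeff m.1 p • r m, ?_, ?_⟩
  · apply IsHomogeneous.sum
    intro m _
    exact (MvPolynomial.homogeneousSubmodule _ K c).smul_mem _ (hr1 m)
  · have hsum : Pad K z k a (∑ m ∈ p.support, monomial m (coeff m p)) =
        X (zrow z (a + k)) ^ (b - c) * ∑ m : {m // m ∈ p.support}, coeff m.1 p • r m := by
      rw [map_sum, Finset.mul_sum, ← Finset.sum_attach, Finset.univ_eq_attach]
      apply Finset.sum_congr rfl
      intro m _
      have e : monomial m.1 (coeff m.1 p) = coeff m.1 p • monomial m.1 (1 : K) := by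
        rw [smul_monomial, smul_eq_mul, mul_one]
      rw [e, map_smul, hr2 m, mul_smul_comm]
    rw [MvPolynomial.support_sum_monomial_coeff p] at hsum
    exact hsum

theorem hw_le_inner [CharZero K] (n a b c k : ℕ) (hcb : c ≤ b) (hab : b * a = c * (a + k))
    (lam : Fin n → ℕ) (z : Fin n) (hz : ∀ x y : Fin n, x < y → y ≠ z)
    (hlam : ∑ x ∈ univ.erase z, lam x ≤ c) :
    Module.finrank K (hwSpace K n b a lam) ≤ Module.finrank K (hwSpace K n c (a + k) lam) := by
  have hfin := hwSpace_finite (K := K) n c (a + k) lam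
  refine finrank_le_of_rel (hwSpace K n b a lam) (hwSpace K n c (a + k) lam)
    (Pad K z k a).toLinearMap
    (LinearMap.mulLeft K ((X (zrow z (a + k)) : MvPolynomial (Sym (Fin n) (a + k)) K) ^ (b - c)))
    Pad_injective ?_ ?_
  · intro p q h
    exact mul_left_cancel₀ (pow_ne_zero _ (X_ne_zero _)) h
  · rintro p ⟨hp1, hp2, hp3⟩
    obtain ⟨q, hq1, hq2⟩ := exists_quot (k := k) lam z hcb hlam p hp1 (fun x _ => hp2 x)
    have hX : (X (zrow z (a + k)) : MvPolynomial (Sym (Fin n) (a + k)) K) ^ (b - c) ≠ 0 :=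
      pow_ne_zero _ (X_ne_zero _)
    refine ⟨q, ?_, hq2⟩
    apply mem_hwSpace_of_partial lam z q hq1
    · intro x hx
      apply mul_left_cancel₀ hX
      rw [← glAct_zrow_mul x x hx, ← hq2, ← Pad_glAct x x hx, hp2 x, map_smul, hq2,
        mul_smul_comm]
    · intro x y hxy
      apply mul_left_cancel₀ hX
      rw [← glAct_zrow_mul x y (hz x y hxy), ← hq2, ← Pad_glAct x y (hz x y hxy),
        hp3 x y hxy, map_zero, mul_zero]
    · by_cases h0 : p = 0
      · left
        rw [h0, map_zero] at hq2
        rcases mul_eq_zero.mp hq2.symm with h | h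
        · exact absurd h hX
        · exact h
      · right
        rw [sum_lam_of_ne_zero lam p hp1 hp2 h0, hab]

theorem hwSpace_finrank_le_general [CharZero K] (n a b c d : ℕ) (ha : 1 ≤ a)
    (hab : a * b = c * d) (hac : a ≤ c) (had : a ≤ d) (lam : Fin (n + 1) → ℕ)
    (hlam : ∑ x ∈ univ.erase (0 : Fin (n + 1)), lam x ≤ max c d) :
    Module.finrank K (hwSpace K (n + 1) a b lam) ≤
      Module.finrank K (hwSpace K (n + 1) c d lam) := by
  have hz : ∀ x y : Fin (n + 1), x < y → y ≠ 0 := fun x y h =>
    Fin.ne_of_gt (lt_of_le_of_lt (Fin.zero_le x) h)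
  have hdb : d ≤ b := by
    by_contra h
    have h1 : b < d := Nat.lt_of_not_le h
    have h2 : a * b < a * d := (Nat.mul_lt_mul_left (by omega : 0 < a)).mpr h1
    have h3 : a * d ≤ c * d := Nat.mul_le_mul_right d hac
    linarith
  have hcb : c ≤ b := by
    by_contra h
    have h1 : b < c := Nat.lt_of_not_le h
    have h2 : a * b < a * c := (Nat.mul_lt_mul_left (by omega : 0 < a)).mpr h1
    have h3 : c * a ≤ c * d := Nat.mul_le_mul_left c had
    linarith [mul_comm a c]
  rcases le_max_iff.mp hlam with h | h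
  · obtain ⟨k, rfl⟩ := Nat.exists_eq_add_of_le had
    exact le_trans (hwSpace_finrank_le (n + 1) a b lam 0 (le_trans h hcb))
      (hw_le_inner (n + 1) a b c k hcb (by rw [mul_comm b a]; exact hab) lam 0 hz h)
  · obtain ⟨k, rfl⟩ := Nat.exists_eq_add_of_le hdb
    exact hw_le_outer (n + 1) a c d k hac hab lam 0 hz h

end Vale.Agent.Lib.P181
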