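import Vale.Agent.Lib.P181.FHCoeffB

/-!
Stable injectivity of the Foulkes-Howe map: the images of distinct monomial basis vectors in which
the basis vector `z` occurs at least `a * b - b` times are linearly independent.
-/

namespace Vale.Agent.Lib.P181

open Finset MvPolynomial

set_option linter.unusedSectionVars false

variable {K : Type*} [Field K] [CharZero K] {σ : Type*} [Fintype σ] [DecidableEq σ] {a b : ℕ}
  {z : σ}

theorem foulkesHowe_linearIndependent {ι : Type*} (f : ι → Fin a → Fin b → σ)
    (hinj : Function.Injective fun i => rowMonomial (f i))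
    (hst : ∀ i, (univ.filter fun p : Fin a × Fin b => f i p.1 p.2 ≠ z).card ≤ b) :
    LinearIndependent K fun i => foulkesHowe K (f i) := by
  classical
  rw [linearIndependent_iff']
  intro s c hc i₀ hi₀
  let Λ : MvPolynomial (Fin a × σ) K →ₗ[K] K :=
    ∑ i ∈ s, (c i * ((rr (f i) : ℕ) : K)) • (MvPolynomial.lcoeff K (dexp z (f i)))
  have hΛ : ∀ p, Λ p = ∑ i ∈ s, c i * ((rr (f i) : ℕ) : K) * coeff (dexp z (f i)) p := by
    intro p
    simp only [Λ, LinearMap.sum_apply, LinearMap.smul_apply, MvPolynomial.lcoeff_apply,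
      smul_eq_mul]
  have h1 : ∀ u : Sym (Sym σ a) b, Λ (QQ K z u) = 0 := by
    intro u
    obtain ⟨D, hD⟩ := exists_tuple u
    have hR : (((univ.filter fun D : Fin b → Sym σ a => tupleSym D = u).card : ℕ) : K) ≠ 0 := by
      rw [Nat.cast_ne_zero]
      exact (Finset.card_pos.mpr ⟨D, by simp [hD]⟩).ne'
    have hu := congrArg (fun v : Sym (Sym σ a) b →₀ K => v u) hc
    simp only [Finsupp.finsetSum_apply, Finsupp.smul_apply, Finsupp.coe_zero, Pi.zero_apply,
      smul_eq_mul] at hu
    apply mul_left_cancel₀ hR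
    rw [hΛ, Finset.mul_sum, mul_zero, ← hu]
    apply Finset.sum_congr rfl
    intro i _
    rw [foulkesHowe_apply (z := z), ← QQ_coeff (K := K) (z := z) (f i) u]
    ring
  have h2 : Submodule.span K (Set.range (QQ (a := a) (b := b) K z)) ≤ LinearMap.ker Λ := by
    rw [Submodule.span_le]
    rintro _ ⟨u, rfl⟩
    exact h1 u
  have h3 : Λ (arrOrb K z (f i₀)) = 0 :=
    h2 (GG_le_span (arrOrb_mem (f i₀) (hst i₀)))
  rw [hΛ, Finset.sum_eq_single i₀] at h3
  · rw [arrOrb_coeff] at h3
    have hN : (((univ.filter fun ρ : Equiv.Perm (Fin a) =>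
        dexp z (fun s j => f i₀ (ρ.symm s) j) = dexp z (f i₀)).card : ℕ) : K) ≠ 0 := by
      rw [Nat.cast_ne_zero]
      refine (Finset.card_pos.mpr ⟨1, ?_⟩).ne'
      simp only [mem_filter, mem_univ, true_and]
      rfl
    have hr : ((rr (f i₀) : ℕ) : K) ≠ 0 := by
      rw [Nat.cast_ne_zero]
      exact (rr_pos _).ne'
    rcases mul_eq_zero.mp h3 with h | h
    · rcases mul_eq_zero.mp h with h | h
      · exact h
      · exact absurd h hr
    · exact absurd h hN
  · intro i _ hne
    rw [arrOrb_coeff]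
    have hemp : (univ.filter fun ρ : Equiv.Perm (Fin a) =>
        dexp z (fun s j => f i₀ (ρ.symm s) j) = dexp z (f i)) = ∅ := by
      rw [Finset.filter_eq_empty_iff]
      intro ρ _ hρ
      apply hne
      apply hinj
      show rowMonomial (f i) = rowMonomial (f i₀)
      rw [← rowMonomial_of_dexp (z := z) (f i) (fun s j => f i₀ (ρ.symm s) j) hρ]
      exact rowMonomial_perm (f i₀) ρ.symm
    rw [hemp]
    simp
  · intro h
    exact absurd hi₀ h

end Vale.Agent.Lib.P181
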