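import Vale.Agent.Lib.P181.FHGen

/-!
The combinatorial core of the polarized Newton identity: for a placement `ψ` of positions into
points and a root position `j₀`, a signed count of the sets `I ∋ j₀` on which `ψ` is constant and
off which `ψ` is injective detects injectivity of `ψ`.
-/

namespace Vale.Agent.Lib.P181

open Finset

set_option linter.unusedSectionVars false

/-- The coefficients `(-1)^(m-1) (m-1)!` of the rooted Newton identity. -/
def bet (K : Type*) [Field K] : ℕ → K
  | 0 => 0
  | (k + 1) => (-1) ^ k * (k.factorial : K)

theorem bet_one (K : Type*) [Field K] : bet K 1 = 1 := by simp [bet]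

theorem bet_rec (K : Type*) [Field K] (k : ℕ) :
    bet K (k + 2) + ((k + 1 : ℕ) : K) * bet K (k + 1) = 0 := by
  simp only [bet, Nat.factorial_succ, Nat.cast_mul, Nat.cast_add, Nat.cast_one, pow_succ]
  ring

theorem bet_ne_zero (K : Type*) [Field K] [CharZero K] (k : ℕ) : bet K (k + 1) ≠ 0 := by
  simp only [bet]
  exact mul_ne_zero (pow_ne_zero _ (by norm_num)) (Nat.cast_ne_zero.mpr (Nat.factorial_ne_zero k))

variable {J : Type} [Fintype J] [DecidableEq J] {P : Type*} [DecidableEq P]

/-- The condition on a set `I` of positions: `ψ` is constant on `I` (equal to its value at the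
root) and injective off `I`. -/
def NCond (ψ : J → P) (j₀ : J) (I : Finset J) : Prop :=
  (∀ j ∈ I, ψ j = ψ j₀) ∧ Set.InjOn ψ (↑Iᶜ : Set J)

noncomputable instance (ψ : J → P) (j₀ : J) (I : Finset J) : Decidable (NCond ψ j₀ I) :=
  Classical.dec _

theorem ncond_char (ψ : J → P) (j₀ : J) (I : Finset J) :
    (j₀ ∈ I ∧ NCond ψ j₀ I) ↔
      (Set.InjOn ψ (↑(univ.filter fun j => ψ j = ψ j₀)ᶜ : Set J) ∧
        (I = univ.filter (fun j => ψ j = ψ j₀) ∨
          ∃ j ∈ (univ.filter fun j => ψ j = ψ j₀).erase j₀,
            I = (univ.filter fun j => ψ j = ψ j₀).erase j)) := by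
  set F := univ.filter fun j => ψ j = ψ j₀ with hF
  have hj₀F : j₀ ∈ F := by simp [hF]
  constructor
  · rintro ⟨hj₀, hconst, hinj⟩
    have hIF : I ⊆ F := fun i hi => by simp [hF, hconst i hi]
    refine ⟨hinj.mono ?_, ?_⟩
    · intro p hp
      simp only [coe_compl, Set.mem_compl_iff, mem_coe] at hp ⊢
      exact fun h => hp (hIF h)
    · by_cases hEq : I = F
      · exact Or.inl hEq
      · right
        obtain ⟨j, hjF, hjI⟩ : ∃ j, j ∈ F ∧ j ∉ I := by
          by_contra hcon
          push Not at hcon
          exact hEq (Finset.Subset.antisymm hIF hcon)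
        refine ⟨j, ?_, ?_⟩
        · rw [mem_erase]
          exact ⟨fun h => hjI (h ▸ hj₀), hjF⟩
        · ext i
          rw [mem_erase]
          constructor
          · intro hi
            exact ⟨fun h => hjI (h ▸ hi), hIF hi⟩
          · rintro ⟨hij, hiF⟩
            by_contra hiI
            apply hij
            apply hinj
            · simpa using hiI
            · simpa using hjI
            · have h1 : ψ i = ψ j₀ := by simpa [hF] using hiF
              have h2 : ψ j = ψ j₀ := by simpa [hF] using hjF
              rw [h1, h2]
  · rintro ⟨hinj, hI⟩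
    rcases hI with rfl | ⟨j, hj, rfl⟩
    · refine ⟨hj₀F, fun i hi => by simpa [hF] using hi, hinj⟩
    · rw [mem_erase] at hj
      refine ⟨by rw [mem_erase]; exact ⟨fun h => hj.1 h.symm, hj₀F⟩, ?_, ?_⟩
      · intro i hi
        rw [mem_erase] at hi
        simpa [hF] using hi.2
      · intro p hp q hq hpq
        simp only [coe_compl, Set.mem_compl_iff, mem_coe, mem_erase, not_and] at hp hq
        have hjv : ψ j = ψ j₀ := by simpa [hF] using hj.2
        by_cases hpF : p ∈ F
        · have hpj : p = j := by
            by_contra h; exact hp h hpF
          by_cases hqF : q ∈ F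
          · have hqj : q = j := by
              by_contra h; exact hq h hqF
            rw [hpj, hqj]
          · exfalso
            apply hqF
            simp only [hF, mem_filter, mem_univ, true_and]
            rw [← hpq, hpj, hjv]
        · by_cases hqF : q ∈ F
          · exfalso
            apply hpF
            have hqj : q = j := by
              by_contra h; exact hq h hqF
            simp only [hF, mem_filter, mem_univ, true_and]
            rw [hpq, hqj, hjv]
          · apply hinj
            · simpa using hpF
            · simpa using hqF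
            · exact hpq

/-- The signed count: summing `bet |I|` over the sets `I ∋ j₀` satisfying `NCond` gives `1` if
`ψ` is injective and `0` otherwise. -/
theorem newton_count (K : Type*) [Field K] (ψ : J → P) (j₀ : J) :
    (∑ I ∈ univ.filter (fun I : Finset J => j₀ ∈ I),
        if NCond ψ j₀ I then bet K I.card else 0) =
      if Function.Injective ψ then 1 else 0 := by
  classical
  set F := univ.filter fun j => ψ j = ψ j₀ with hF
  have hj₀F : j₀ ∈ F := by simp [hF]
  rw [← Finset.sum_filter, Finset.filter_filter]
  by_cases hinj : Set.InjOn ψ (↑Fᶜ : Set J)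
  · have hset : (univ.filter fun I : Finset J => j₀ ∈ I ∧ NCond ψ j₀ I) =
        insert F ((F.erase j₀).image fun j => F.erase j) := by
      ext I
      simp only [mem_filter, mem_univ, true_and, mem_insert, mem_image]
      rw [ncond_char]
      constructor
      · rintro ⟨_, h | ⟨j, hj, rfl⟩⟩
        · exact Or.inl h
        · exact Or.inr ⟨j, hj, rfl⟩
      · rintro (h | ⟨j, hj, rfl⟩)
        · exact ⟨hinj, Or.inl h⟩
        · exact ⟨hinj, Or.inr ⟨j, hj, rfl⟩⟩
    rw [hset, Finset.sum_insert, Finset.sum_image]
    · have hcard : ∀ j ∈ F.erase j₀, bet K (F.erase j).card = bet K (F.card - 1) := by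
        intro j hj
        rw [Finset.card_erase_of_mem (Finset.mem_of_mem_erase hj)]
      rw [Finset.sum_congr rfl hcard, Finset.sum_const, Finset.card_erase_of_mem hj₀F]
      obtain ⟨k, hk⟩ : ∃ k, F.card = k + 1 :=
        ⟨F.card - 1, (Nat.succ_pred_eq_of_pos (Finset.card_pos.mpr ⟨j₀, hj₀F⟩)).symm⟩
      rw [hk]
      rcases k with _ | k
      · -- F = {j₀}: ψ is injective
        have hFs : F = {j₀} := by
          rw [Finset.card_eq_one] at hk
          obtain ⟨c, hc⟩ := hk
          rw [hc] at hj₀F
          rw [hc, Finset.mem_singleton.mp hj₀F]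
        have hψ : Function.Injective ψ := by
          intro p q hpq
          by_cases hpF : p ∈ F
          · have hqF : q ∈ F := by
              simp only [hF, mem_filter, mem_univ, true_and] at hpF ⊢
              rw [← hpq, hpF]
            rw [hFs, Finset.mem_singleton] at hpF hqF
            rw [hpF, hqF]
          · have hqF : q ∉ F := by
              intro hqF
              apply hpF
              simp only [hF, mem_filter, mem_univ, true_and] at hqF ⊢
              rw [hpq, hqF]
            exact hinj (by simpa using hpF) (by simpa using hqF) hpq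
        simp [hψ, bet_one]
      · -- |F| ≥ 2: ψ is not injective
        have hψ : ¬ Function.Injective ψ := by
          intro hψ
          have h1 : F.card ≤ 1 := by
            apply Finset.card_le_one.mpr
            intro p hp q hq
            simp only [hF, mem_filter, mem_univ, true_and] at hp hq
            exact hψ (hp.trans hq.symm)
          omega
        simp only [hψ, if_false, Nat.add_sub_cancel, nsmul_eq_mul]
        exact bet_rec K k
    · intro j hj j' hj' hjj'
      simp only [coe_erase, Set.mem_sdiff, mem_coe, Set.mem_singleton_iff] at hj hj'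
      by_contra hne
      have h1 : j' ∈ F.erase j := by
        rw [mem_erase]; exact ⟨fun h => hne h.symm, hj'.1⟩
      simp only [hjj'] at h1
      exact (Finset.notMem_erase j' F) h1
    · simp only [mem_image, not_exists, not_and]
      intro j hj h
      have : j ∈ F.erase j := by rw [h]; exact Finset.mem_of_mem_erase hj
      exact (Finset.notMem_erase j F) this
  · have hset : (univ.filter fun I : Finset J => j₀ ∈ I ∧ NCond ψ j₀ I) = ∅ := by
      ext I
      simp only [mem_filter, mem_univ, true_and, notMem_empty, iff_false]
      rw [ncond_char]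
      exact fun h => hinj h.1
    have hψ : ¬ Function.Injective ψ := fun hψ => hinj (hψ.injOn)
    rw [hset, Finset.sum_empty, if_neg hψ]

end Vale.Agent.Lib.P181
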