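import Vale.Agent.Lib.P181.FHNewtonA

/-!
Sums over injective placements of positions into points are multiples of polarized elementary
symmetric polynomials.
-/

namespace Vale.Agent.Lib.P181

open Finset MvPolynomial

set_option linter.unusedSectionVars false

variable {K : Type*} [Field K] {σ : Type*} [Fintype σ] [DecidableEq σ] {a : ℕ} {z : σ}
variable {J : Type} [Fintype J] [DecidableEq J]

/-- The monomial of a placement `ψ` of the positions `J` (carrying letters `x`) into points. -/
noncomputable def pmon (K : Type*) [Field K] (x : J → σ) (ψ : J → Fin a) :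
    MvPolynomial (Fin a × σ) K :=
  ∏ j, X (ψ j, x j)

/-- The power sum of the positions `J`: all positions are placed at the same point. -/
noncomputable def pw (K : Type*) [Field K] (a : ℕ) (x : J → σ) : MvPolynomial (Fin a × σ) K :=
  ∑ s : Fin a, ∏ j, X (s, x j)

/-- The sum over all injective placements. -/
noncomputable def emb (K : Type*) [Field K] (a : ℕ) (x : J → σ) : MvPolynomial (Fin a × σ) K :=
  ∑ ψ ∈ univ.filter (fun ψ : J → Fin a => Function.Injective ψ), pmon K x ψ

/-- The column of an injective placement: point `ψ j` carries the letter `x j`, all other points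
carry `z`. -/
noncomputable def colOf (z : σ) (x : J → σ) (ψ : J → Fin a) : Fin a → σ := fun s =>
  if h : ∃ j, ψ j = s then x h.choose else z

theorem colOf_apply (x : J → σ) (ψ : J → Fin a) (hψ : Function.Injective ψ) (j : J) :
    colOf z x ψ (ψ j) = x j := by
  have h : ∃ j', ψ j' = ψ j := ⟨j, rfl⟩
  simp only [colOf, dif_pos h]
  rw [hψ h.choose_spec]

theorem colOf_not (x : J → σ) (ψ : J → Fin a) (s : Fin a) (hs : ¬ ∃ j, ψ j = s) :
    colOf z x ψ s = z := by
  simp only [colOf, dif_neg hs]

theorem colMon_colOf (x : J → σ) (hx : ∀ j, x j ≠ z) (ψ : J → Fin a)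
    (hψ : Function.Injective ψ) : colMon K a z (colOf z x ψ) = pmon K x ψ := by
  unfold colMon pmon
  rw [← Finset.prod_subset (Finset.subset_univ (univ.image ψ))]
  · rw [Finset.prod_image (fun p _ q _ h => hψ h)]
    apply Finset.prod_congr rfl
    intro j _
    rw [colOf_apply x ψ hψ j, vv, if_neg (hx j)]
  · intro s _ hs
    have : ¬ ∃ j, ψ j = s := by
      rintro ⟨j, rfl⟩
      exact hs (Finset.mem_image_of_mem ψ (Finset.mem_univ j))
    rw [colOf_not x ψ s this, vv, if_pos rfl]

theorem colOf_perm (x : J → σ) (ψ : J → Fin a) (hψ : Function.Injective ψ)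
    (ρ : Equiv.Perm (Fin a)) (s : Fin a) :
    colOf z x (fun j => ρ⁻¹ (ψ j)) s = colOf z x ψ (ρ s) := by
  by_cases h : ∃ j, ψ j = ρ s
  · obtain ⟨j, hj⟩ := h
    have h1 : (fun j => ρ⁻¹ (ψ j)) j = s := by simp [hj]
    have hinj : Function.Injective (fun j => ρ⁻¹ (ψ j)) := fun p q hpq =>
      hψ (ρ⁻¹.injective hpq)
    rw [← hj, colOf_apply x ψ hψ j, ← h1, colOf_apply x _ hinj j]
  · have h' : ¬ ∃ j, (fun j => ρ⁻¹ (ψ j)) j = s := by
      rintro ⟨j, hj⟩
      apply h
      refine ⟨j, ?_⟩
      simp only at hj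
      rw [← hj]; simp
    rw [colOf_not x ψ _ h, colOf_not x _ _ h']

theorem card_colOf_fiber (x : J → σ) (c c' : Fin a → σ) (hcc : tupleSym c = tupleSym c') :
    ((univ.filter fun ψ : J → Fin a => Function.Injective ψ).filter
        fun ψ => colOf z x ψ = c).card =
      ((univ.filter fun ψ : J → Fin a => Function.Injective ψ).filter
        fun ψ => colOf z x ψ = c').card := by
  have hm : (univ : Finset (Fin a)).val.map c = (univ : Finset (Fin a)).val.map c' :=
    congrArg Subtype.val hcc
  obtain ⟨ρ, hρ⟩ := exists_perm_of_map_eq c c' hm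
  refine Finset.card_bij' (fun ψ _ => fun j => ρ⁻¹ (ψ j)) (fun ψ _ => fun j => ρ (ψ j))
    ?_ ?_ ?_ ?_
  · intro ψ hψ
    simp only [mem_filter, mem_univ, true_and] at hψ ⊢
    refine ⟨fun p q hpq => hψ.1 (ρ⁻¹.injective hpq), ?_⟩
    funext s
    rw [colOf_perm x ψ hψ.1 ρ s, hψ.2, hρ]
  · intro ψ hψ
    simp only [mem_filter, mem_univ, true_and] at hψ ⊢
    refine ⟨fun p q hpq => hψ.1 (ρ.injective hpq), ?_⟩
    funext s
    have h := colOf_perm (z := z) x ψ hψ.1 ρ⁻¹ s
    simp only [inv_inv] at h
    rw [h, hψ.2, ← hρ]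
    simp
  · intro ψ _; funext j; simp
  · intro ψ _; funext j; simp

theorem emb_mem (x : J → σ) (hx : ∀ j, x j ≠ z) : emb K a x ∈ GG K a z 1 := by
  classical
  unfold emb
  rw [Finset.sum_congr rfl (fun ψ hψ => (colMon_colOf (K := K) x hx ψ
    (by simpa using hψ)).symm)]
  rw [← Finset.sum_fiberwise _ (fun ψ => colOf z x ψ)]
  rw [← Finset.sum_fiberwise _ (fun c : Fin a → σ => tupleSym c)]
  apply Submodule.sum_mem
  intro C _
  by_cases hC : ∃ c₀ : Fin a → σ, tupleSym c₀ = C
  · obtain ⟨c₀, hc₀⟩ := hC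
    have key : ∀ c ∈ univ.filter (fun c : Fin a → σ => tupleSym c = C),
        (∑ ψ ∈ (univ.filter fun ψ : J → Fin a => Function.Injective ψ).filter
            (fun ψ => colOf z x ψ = c), colMon K a z (colOf z x ψ)) =
          (((univ.filter fun ψ : J → Fin a => Function.Injective ψ).filter
            fun ψ => colOf z x ψ = c₀).card : K) • colMon K a z c := by
      intro c hc
      simp only [mem_filter, mem_univ, true_and] at hc
      rw [Finset.sum_congr rfl (fun ψ hψ => by rw [(Finset.mem_filter.mp hψ).2])]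
      rw [Finset.sum_const, card_colOf_fiber x c c₀ (hc.trans hc₀.symm), Nat.cast_smul_eq_nsmul]
    rw [Finset.sum_congr rfl key, ← Finset.smul_sum]
    exact Submodule.smul_mem _ _ (gen_mem_GG C)
  · have : univ.filter (fun c : Fin a → σ => tupleSym c = C) = ∅ := by
      ext c
      simp only [mem_filter, mem_univ, true_and, notMem_empty, iff_false]
      exact fun h => hC ⟨c, h⟩
    rw [this, Finset.sum_empty]
    exact Submodule.zero_mem _

end Vale.Agent.Lib.P181
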