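import Vale.Agent.Lib.P181.FHNewtonB

/-!
The polarized Newton identity and its consequence: every power sum of `n` positions lies in the
span of products of at most `n` polarized elementary symmetric polynomials.
-/

namespace Vale.Agent.Lib.P181

open Finset MvPolynomial

set_option linter.unusedSectionVars false

variable {K : Type*} [Field K] {σ : Type*} [Fintype σ] [DecidableEq σ] {a : ℕ} {z : σ}
variable {J : Type} [Fintype J] [DecidableEq J]

/-- The sum of the monomials of the placements that are constant on `I` and injective off `I`. -/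
noncomputable def AA (K : Type*) [Field K] (a : ℕ) (x : J → σ) (j₀ : J) (I : Finset J) :
    MvPolynomial (Fin a × σ) K :=
  ∑ ψ ∈ univ.filter (fun ψ : J → Fin a => NCond ψ j₀ I), pmon K x ψ

theorem newton_poly (x : J → σ) (j₀ : J) :
    (∑ I ∈ univ.filter (fun I : Finset J => j₀ ∈ I), bet K I.card • AA K a x j₀ I) =
      emb K a x := by
  classical
  unfold AA emb
  simp_rw [Finset.sum_filter (fun ψ : J → Fin a => NCond ψ j₀ _), Finset.smul_sum]
  rw [Finset.sum_comm]
  rw [Finset.sum_filter]
  apply Finset.sum_congr rfl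
  intro ψ _
  have h := newton_count K ψ j₀
  have h2 : ∀ I : Finset J, bet K I.card • (if NCond ψ j₀ I then pmon K x ψ else 0) =
      (if NCond ψ j₀ I then bet K I.card else 0) • pmon K x ψ := by
    intro I
    split_ifs <;> simp
  rw [Finset.sum_congr rfl (fun I _ => h2 I), ← Finset.sum_smul, h]
  split_ifs <;> simp

theorem AA_univ [Nonempty (Fin a)] (x : J → σ) (j₀ : J) : AA K a x j₀ univ = pw K a x := by
  classical
  unfold AA pw
  refine Finset.sum_bij' (fun ψ _ => ψ j₀) (fun s _ => fun _ => s) ?_ ?_ ?_ ?_ ?_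
  · intro ψ _; exact Finset.mem_univ _
  · intro s _
    rw [mem_filter]
    exact ⟨mem_univ _, fun _ _ => rfl, by simp⟩
  · intro ψ hψ
    rw [mem_filter] at hψ
    funext j
    exact (hψ.2.1 j (Finset.mem_univ j)).symm
  · intro s _; rfl
  · intro ψ hψ
    rw [mem_filter] at hψ
    unfold pmon
    apply Finset.prod_congr rfl
    intro j _
    rw [hψ.2.1 j (Finset.mem_univ j)]

theorem AA_univ' (x : J → σ) (j₀ : J) : AA K a x j₀ univ = pw K a x := by
  rcases Nat.eq_zero_or_pos a with rfl | ha
  · unfold AA pw
    rw [Finset.sum_eq_zero, Finset.sum_eq_zero]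
    · intro s _; exact Fin.elim0 s
    · intro ψ _; exact Fin.elim0 (ψ j₀)
  · have : Nonempty (Fin a) := ⟨⟨0, ha⟩⟩
    exact AA_univ x j₀

theorem ncond_glue (j₀ : J) (I : Finset J) (h₀ : j₀ ∈ I) (p : {j // j ∈ I} → Fin a)
    (q : {j // j ∉ I} → Fin a) :
    NCond ((Equiv.piEquivPiSubtypeProd (fun j => j ∈ I) (fun _ => Fin a)).symm (p, q)) j₀ I ↔
      ((∀ j, p j = p ⟨j₀, h₀⟩) ∧ Function.Injective q) := by
  have hval : ∀ j, (Equiv.piEquivPiSubtypeProd (fun j => j ∈ I) (fun _ => Fin a)).symm (p, q) j =
      if h : j ∈ I then p ⟨j, h⟩ else q ⟨j, h⟩ := fun j => rfl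
  unfold NCond
  constructor
  · rintro ⟨hc, hi⟩
    refine ⟨fun j => ?_, fun j j' hjj' => ?_⟩
    · have := hc j.1 j.2
      rw [hval, hval, dif_pos j.2, dif_pos h₀] at this
      exact this
    · have := @hi j.1 (by simpa using j.2) j'.1 (by simpa using j'.2)
        (by rw [hval, hval, dif_neg j.2, dif_neg j'.2]; exact hjj')
      exact Subtype.ext this
  · rintro ⟨hc, hi⟩
    refine ⟨fun j hj => ?_, fun j hj j' hj' hjj' => ?_⟩
    · rw [hval, hval, dif_pos hj, dif_pos h₀]
      exact hc ⟨j, hj⟩
    · have hj1 : j ∉ I := by simpa using hj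
      have hj2 : j' ∉ I := by simpa using hj'
      rw [hval, hval, dif_neg hj1, dif_neg hj2] at hjj'
      exact congrArg Subtype.val (hi hjj')

theorem pmon_glue (x : J → σ) (I : Finset J) (p : {j // j ∈ I} → Fin a)
    (q : {j // j ∉ I} → Fin a) :
    pmon K x ((Equiv.piEquivPiSubtypeProd (fun j => j ∈ I) (fun _ => Fin a)).symm (p, q)) =
      (∏ j : {j // j ∈ I}, (X (p j, x j) : MvPolynomial (Fin a × σ) K)) *
        pmon K (fun j : {j // j ∉ I} => x j) q := by
  have hval : ∀ j, (Equiv.piEquivPiSubtypeProd (fun j => j ∈ I) (fun _ => Fin a)).symm (p, q) j =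
      if h : j ∈ I then p ⟨j, h⟩ else q ⟨j, h⟩ := fun j => rfl
  unfold pmon
  rw [← Finset.prod_mul_prod_compl I, ← Finset.prod_coe_sort I,
    Finset.prod_subtype (Iᶜ) (p := fun j => j ∉ I) (fun j => by simp)]
  congr 1
  · apply Finset.prod_congr rfl
    intro j _
    rw [hval, dif_pos j.2]
  · apply Finset.prod_congr rfl
    intro j _
    rw [hval, dif_neg j.2]

theorem AA_factor (x : J → σ) (j₀ : J) (I : Finset J) (h₀ : j₀ ∈ I) :
    AA K a x j₀ I = pw K a (fun j : {j // j ∈ I} => x j) *
      emb K a (fun j : {j // j ∉ I} => x j) := by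
  classical
  -- the left factor as a sum over the placements of `I` that are constant
  have hleft : pw K a (fun j : {j // j ∈ I} => x j) =
      ∑ p : {j // j ∈ I} → Fin a, if (∀ j, p j = p ⟨j₀, h₀⟩) then
        ∏ j : {j // j ∈ I}, (X (p j, x j) : MvPolynomial (Fin a × σ) K) else 0 := by
    unfold pw
    rw [← Finset.sum_filter]
    symm
    refine Finset.sum_bij' (fun p _ => p ⟨j₀, h₀⟩) (fun s _ => fun _ => s) ?_ ?_ ?_ ?_ ?_
    · intro p _; exact Finset.mem_univ _
    · intro s _; simp
    · intro p hp
      simp only [mem_filter, mem_univ, true_and] at hp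
      funext j; exact (hp j).symm
    · intro s _; rfl
    · intro p hp
      simp only [mem_filter, mem_univ, true_and] at hp
      apply Finset.prod_congr rfl
      intro j _
      rw [hp j]
  have hright : emb K a (fun j : {j // j ∉ I} => x j) =
      ∑ q : {j // j ∉ I} → Fin a, if Function.Injective q then
        pmon K (fun j : {j // j ∉ I} => x j) q else 0 := by
    unfold emb
    rw [Finset.sum_filter]
  rw [hleft, hright, Finset.sum_mul_sum]
  unfold AA
  rw [Finset.sum_filter,
    ← Equiv.sum_comp (Equiv.piEquivPiSubtypeProd (fun j => j ∈ I) (fun _ => Fin a)).symm,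
    Fintype.sum_prod_type]
  apply Finset.sum_congr rfl
  intro p _
  apply Finset.sum_congr rfl
  intro q _
  rw [pmon_glue]
  by_cases h1 : ∀ j, p j = p ⟨j₀, h₀⟩
  · by_cases h2 : Function.Injective q
    · rw [if_pos ((ncond_glue j₀ I h₀ p q).mpr ⟨h1, h2⟩), if_pos h1, if_pos h2]
    · rw [if_neg (fun h => h2 ((ncond_glue j₀ I h₀ p q).mp h).2), if_neg h2, mul_zero]
  · rw [if_neg (fun h => h1 ((ncond_glue j₀ I h₀ p q).mp h).1), if_neg h1, zero_mul]

/-- Every power sum of `n` positions (carrying letters different from `z`) lies in the span of the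
products of at most `n` polarized elementary symmetric polynomials. -/
theorem pw_mem [CharZero K] : ∀ (n : ℕ) (J : Type) [Fintype J] [DecidableEq J] (x : J → σ),
    (∀ j, x j ≠ z) → Fintype.card J = n → pw K a x ∈ GG K a z n := by
  intro n
  induction n using Nat.strong_induction_on with
  | _ n ih =>
    intro J _ _ x hx hcard
    rcases isEmpty_or_nonempty J with hJ | hJ
    · have : pw K a x = ((a : ℕ) : MvPolynomial (Fin a × σ) K) := by
        unfold pw
        simp
      rw [this]
      exact natCast_mem_GG n a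
    · obtain ⟨j₀⟩ := hJ
      have hnpos : 0 < n := by
        rw [← hcard]; exact Fintype.card_pos_iff.mpr ⟨j₀⟩
      obtain ⟨k, rfl⟩ : ∃ k, n = k + 1 := ⟨n - 1, by omega⟩
      have hN := newton_poly (K := K) (a := a) x j₀
      have huniv : (univ : Finset J) ∈ univ.filter (fun I : Finset J => j₀ ∈ I) := by simp
      rw [← Finset.add_sum_erase _ _ huniv, AA_univ', Finset.card_univ, hcard] at hN
      have hsolve : pw K a x = (bet K (k + 1))⁻¹ • (emb K a x -
          ∑ I ∈ (univ.filter (fun I : Finset J => j₀ ∈ I)).erase univ,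
            bet K I.card • AA K a x j₀ I) := by
        rw [← hN, add_sub_cancel_right, smul_smul, inv_mul_cancel₀ (bet_ne_zero K k), one_smul]
      rw [hsolve]
      apply Submodule.smul_mem
      apply Submodule.sub_mem
      · exact GG_mono (by omega) (emb_mem x hx)
      · apply Submodule.sum_mem
        intro I hI
        rw [Finset.mem_erase, Finset.mem_filter] at hI
        apply Submodule.smul_mem
        rw [AA_factor x j₀ I hI.2.2]
        have hIcard : I.card < k + 1 := by
          rw [← hcard, ← Finset.card_univ]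
          exact Finset.card_lt_card (Finset.ssubset_univ_iff.mpr hI.1)
        have h1 : pw K a (fun j : {j // j ∈ I} => x j) ∈ GG K a z I.card :=
          ih I.card hIcard {j // j ∈ I} (fun j => x j) (fun j => hx j) (by simp)
        have h2 : emb K a (fun j : {j // j ∉ I} => x j) ∈ GG K a z 1 :=
          emb_mem (fun j : {j // j ∉ I} => x j) (fun j => hx j)
        exact mul_mem_GG' h1 h2 (by omega)

end Vale.Agent.Lib.P181
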