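import Vale.Agent.Lib.P181.FHNewtonC

/-!
Orbit sums of placements: the sum of the monomials of all translates `ρ ∘ φ` of a placement `φ`
of `n` positions lies in the span of products of at most `n` polarized elementary symmetric
polynomials.
-/

namespace Vale.Agent.Lib.P181

open Finset MvPolynomial

set_option linter.unusedSectionVars false

variable {K : Type*} [Field K] {σ : Type*} [Fintype σ] [DecidableEq σ] {a : ℕ} {z : σ}
variable {ι : Type} [Fintype ι] [DecidableEq ι]

/-- The orbit sum of the placement `φ` under permutations of the points. -/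
noncomputable def orb (K : Type*) [Field K] (x : ι → σ) (φ : ι → Fin a) :
    MvPolynomial (Fin a × σ) K :=
  ∑ ρ : Equiv.Perm (Fin a), pmon K x (fun j => ρ (φ j))

/-- Auxiliary monomial: the positions of the block `φ⁻¹ s₀` are placed at `s`, the others
according to `ρ ∘ φ`. -/
noncomputable def FF (K : Type*) [Field K] (x : ι → σ) (φ : ι → Fin a) (s₀ : Fin a)
    (ρ : Equiv.Perm (Fin a)) (s : Fin a) : MvPolynomial (Fin a × σ) K :=
  ∏ j, X (if φ j = s₀ then s else ρ (φ j), x j)

theorem orb_eq_FF (x : ι → σ) (φ : ι → Fin a) (s₀ : Fin a) :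
    orb K x φ = ∑ ρ : Equiv.Perm (Fin a), FF K x φ s₀ ρ (ρ s₀) := by
  unfold orb FF pmon
  apply Finset.sum_congr rfl
  intro ρ _
  apply Finset.prod_congr rfl
  intro j _
  by_cases h : φ j = s₀
  · simp only [h, if_true]
  · simp only [h, if_false]

theorem orb_merge_eq_FF (x : ι → σ) (φ : ι → Fin a) (s₀ s₁ : Fin a) :
    orb K x (fun j => if φ j = s₀ then s₁ else φ j) =
      ∑ ρ : Equiv.Perm (Fin a), FF K x φ s₀ ρ (ρ s₁) := by
  unfold orb FF pmon
  apply Finset.sum_congr rfl
  intro ρ _
  apply Finset.prod_congr rfl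
  intro j _
  by_cases h : φ j = s₀
  · simp only [h, if_true]
  · simp only [h, if_false]

theorem FF_swap (x : ι → σ) (φ : ι → Fin a) (s₀ t : Fin a)
    (ht : ∀ j, φ j ≠ s₀ → φ j ≠ t) (ρ : Equiv.Perm (Fin a)) (s : Fin a) :
    FF K x φ s₀ (ρ * Equiv.swap t s₀) s = FF K x φ s₀ ρ s := by
  unfold FF
  apply Finset.prod_congr rfl
  intro j _
  by_cases h : φ j = s₀
  · rw [if_pos h, if_pos h]
  · rw [if_neg h, if_neg h, Equiv.Perm.mul_apply, Equiv.swap_apply_of_ne_of_ne (ht j h) h]

theorem prod_split (x : ι → σ) (φ : ι → Fin a) (s₀ : Fin a) (ρ : Equiv.Perm (Fin a))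
    (s : Fin a) :
    pmon K (fun j : {j // ¬ φ j = s₀} => x j) (fun j => ρ (φ j)) *
        (∏ j : {j // φ j = s₀}, (X (s, x j) : MvPolynomial (Fin a × σ) K)) =
      FF K x φ s₀ ρ s := by
  unfold FF pmon
  rw [← Finset.prod_filter_mul_prod_filter_not univ (fun j => φ j = s₀), mul_comm]
  congr 1
  · rw [Finset.prod_subtype (univ.filter fun j => φ j = s₀) (p := fun j => φ j = s₀)
      (fun j => by simp)]
    apply Finset.prod_congr rfl
    intro j _
    rw [if_pos j.2]
  · rw [Finset.prod_subtype (univ.filter fun j => ¬ φ j = s₀) (p := fun j => ¬ φ j = s₀)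
      (fun j => by simp)]
    apply Finset.prod_congr rfl
    intro j _
    rw [if_neg j.2]

/-- The product formula: peeling off the block `φ⁻¹ s₀`. -/
theorem orb_mul_pw (x : ι → σ) (φ : ι → Fin a) (s₀ : Fin a) :
    orb K (fun j : {j // ¬ φ j = s₀} => x j) (fun j => φ j) *
        pw K a (fun j : {j // φ j = s₀} => x j) =
      ((univ.image fun j : {j // ¬ φ j = s₀} => φ j)ᶜ.card : MvPolynomial (Fin a × σ) K) *
          orb K x φ +
        ∑ s₁ ∈ univ.image (fun j : {j // ¬ φ j = s₀} => φ j),
          orb K x (fun j => if φ j = s₀ then s₁ else φ j) := by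
  classical
  set T := univ.image (fun j : {j // ¬ φ j = s₀} => φ j) with hT
  have h1 : orb K (fun j : {j // ¬ φ j = s₀} => x j) (fun j => φ j) *
        pw K a (fun j : {j // φ j = s₀} => x j) =
      ∑ ρ : Equiv.Perm (Fin a), ∑ s : Fin a, FF K x φ s₀ ρ s := by
    unfold orb pw
    rw [Finset.sum_mul_sum]
    apply Finset.sum_congr rfl
    intro ρ _
    apply Finset.sum_congr rfl
    intro s _
    exact prod_split x φ s₀ ρ s
  have h2 : ∀ ρ : Equiv.Perm (Fin a), (∑ s : Fin a, FF K x φ s₀ ρ s) =
      ∑ t : Fin a, FF K x φ s₀ ρ (ρ t) := fun ρ =>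
    (Equiv.sum_comp ρ (fun s => FF K x φ s₀ ρ s)).symm
  rw [h1, Finset.sum_congr rfl (fun ρ _ => h2 ρ), Finset.sum_comm,
    ← Finset.sum_add_sum_compl T, add_comm]
  congr 1
  · have h3 : ∀ t ∈ Tᶜ, (∑ ρ : Equiv.Perm (Fin a), FF K x φ s₀ ρ (ρ t)) = orb K x φ := by
      intro t ht
      have ht' : ∀ j, φ j ≠ s₀ → φ j ≠ t := by
        intro j hj hjt
        rw [Finset.mem_compl, hT, Finset.mem_image] at ht
        exact ht ⟨⟨j, hj⟩, Finset.mem_univ _, hjt⟩
      rw [orb_eq_FF x φ s₀,
        ← Equiv.sum_comp (Equiv.mulRight (Equiv.swap t s₀))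
          (fun ρ : Equiv.Perm (Fin a) => FF K x φ s₀ ρ (ρ s₀))]
      apply Finset.sum_congr rfl
      intro ρ _
      simp only [Equiv.coe_mulRight, Equiv.Perm.mul_apply, Equiv.swap_apply_right]
      rw [FF_swap x φ s₀ t ht']
    rw [Finset.sum_congr rfl h3, Finset.sum_const, nsmul_eq_mul]
  · apply Finset.sum_congr rfl
    intro s₁ _
    rw [orb_merge_eq_FF]

theorem image_restrict (φ : ι → Fin a) (s₀ : Fin a) :
    univ.image (fun j : {j // ¬ φ j = s₀} => φ j) = (univ.image φ).erase s₀ := by
  ext s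
  simp only [mem_image, mem_univ, true_and, mem_erase, Subtype.exists, exists_prop]
  constructor
  · rintro ⟨j, hj, rfl⟩
    exact ⟨hj, j, rfl⟩
  · rintro ⟨hs, j, rfl⟩
    exact ⟨j, hs, rfl⟩

theorem image_merge (φ : ι → Fin a) (s₀ s₁ : Fin a)
    (hs₁ : s₁ ∈ univ.image (fun j : {j // ¬ φ j = s₀} => φ j)) :
    univ.image (fun j => if φ j = s₀ then s₁ else φ j) =
      univ.image (fun j : {j // ¬ φ j = s₀} => φ j) := by
  ext s
  simp only [mem_image, mem_univ, true_and, Subtype.exists, exists_prop]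
  constructor
  · rintro ⟨j, rfl⟩
    by_cases h : φ j = s₀
    · rw [if_pos h]
      simpa using hs₁
    · rw [if_neg h]
      exact ⟨j, h, rfl⟩
  · rintro ⟨j, hj, rfl⟩
    exact ⟨j, by rw [if_neg hj]⟩

/-- Every orbit sum of a placement of the positions `ι` (carrying letters different from `z`)
lies in the span of the products of at most `|ι|` polarized elementary symmetric polynomials. -/
theorem orb_mem [CharZero K] : ∀ (r : ℕ) (ι : Type) [Fintype ι] [DecidableEq ι] (x : ι → σ)
    (φ : ι → Fin a), (∀ j, x j ≠ z) → (univ.image φ).card = r →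
    orb K x φ ∈ GG K a z (Fintype.card ι) := by
  intro r
  induction r with
  | zero =>
    intro ι _ _ x φ hx hr
    have hempty : IsEmpty ι := by
      rw [Finset.card_eq_zero, Finset.image_eq_empty] at hr
      exact Finset.univ_eq_empty_iff.mp hr
    have : orb K x φ = ((Fintype.card (Equiv.Perm (Fin a)) : ℕ) : MvPolynomial (Fin a × σ) K) := by
      unfold orb pmon
      simp
    rw [this]
    exact natCast_mem_GG _ _
  | succ r ih =>
    intro ι _ _ x φ hx hr
    have hne : (univ.image φ).Nonempty := by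
      rw [← Finset.card_pos, hr]; omega
    obtain ⟨s₀, hs₀⟩ := hne
    have PF := orb_mul_pw (K := K) x φ s₀
    have hTcard : (univ.image (fun j : {j // ¬ φ j = s₀} => φ j)).card = r := by
      rw [image_restrict, Finset.card_erase_of_mem hs₀, hr]; rfl
    have hle : r + 1 ≤ a := by
      rw [← hr]
      calc (univ.image φ).card ≤ (univ : Finset (Fin a)).card := Finset.card_le_univ _
        _ = a := by simp
    have hc : (univ.image (fun j : {j // ¬ φ j = s₀} => φ j))ᶜ.card = a - r := by
      rw [Finset.card_compl, hTcard, Fintype.card_fin]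
    rw [hc] at PF
    have hcK : ((a - r : ℕ) : K) ≠ 0 := Nat.cast_ne_zero.mpr (by omega)
    have hsolve : orb K x φ = ((a - r : ℕ) : K)⁻¹ •
        (orb K (fun j : {j // ¬ φ j = s₀} => x j) (fun j => φ j) *
            pw K a (fun j : {j // φ j = s₀} => x j) -
          ∑ s₁ ∈ univ.image (fun j : {j // ¬ φ j = s₀} => φ j),
            orb K x (fun j => if φ j = s₀ then s₁ else φ j)) := by
      rw [PF, add_sub_cancel_right]
      have : ((a - r : ℕ) : MvPolynomial (Fin a × σ) K) * orb K x φ =
          ((a - r : ℕ) : K) • orb K x φ := by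
        rw [MvPolynomial.smul_eq_C_mul, map_natCast]
      rw [this, smul_smul, inv_mul_cancel₀ hcK, one_smul]
    rw [hsolve]
    apply Submodule.smul_mem
    apply Submodule.sub_mem
    · have h1 := ih {j // ¬ φ j = s₀} (fun j => x j) (fun j => φ j) (fun j => hx j) hTcard
      have h2 := pw_mem (K := K) (a := a) (z := z) (Fintype.card {j // φ j = s₀})
        {j // φ j = s₀} (fun j => x j) (fun j => hx j) rfl
      refine mul_mem_GG' h1 h2 ?_
      rw [Fintype.card_subtype_compl]
      have := Fintype.card_subtype_le (fun j => φ j = s₀)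
      omega
    · apply Submodule.sum_mem
      intro s₁ hs₁
      apply ih ι x _ hx
      rw [image_merge φ s₀ s₁ hs₁, hTcard]

end Vale.Agent.Lib.P181
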