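import Vale.Agent.Lib.P181.FHPsi

/-!
Padding the monomials of `Sym^b V` with copies of a fixed basis vector `z`, and the compatibility
of the induced map of polynomial rings with the matrix units `E_{x y}`, `y ≠ z`.
-/

namespace Vale.Agent.Lib.P181

open Finset MvPolynomial

set_option linter.unusedSectionVars false

variable {K : Type*} [Field K] {σ : Type*} [DecidableEq σ] {a b d k : ℕ} {z : σ}

/-- Pad a monomial of degree `d` with `k` copies of `z`. -/
def padSym (z : σ) (k : ℕ) {d : ℕ} (t : Sym σ d) : Sym σ (d + k) :=
  ⟨t.val + Multiset.replicate k z, by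
    rw [Multiset.card_add, Multiset.card_replicate, t.2]⟩

theorem padSym_injective : Function.Injective (padSym z k (d := d)) := by
  intro s t h
  apply Subtype.ext
  exact add_right_cancel (congrArg Subtype.val h)

theorem count_padSym (t : Sym σ d) (y : σ) (hy : y ≠ z) :
    Multiset.count y (padSym z k t).val = Multiset.count y t.val := by
  show Multiset.count y (t.val + Multiset.replicate k z) = _
  rw [Multiset.count_add, Multiset.count_replicate, if_neg (Ne.symm hy), add_zero]

theorem symReplace_of_notMem (t : Sym σ d) (x y : σ) (h : y ∉ t.val) :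
    symReplace t x y = t :=
  dif_neg h

theorem symReplace_padSym (t : Sym σ d) (x y : σ) (hy : y ≠ z) :
    symReplace (padSym z k t) x y = padSym z k (symReplace t x y) := by
  by_cases h : y ∈ t.val
  · have h' : y ∈ (padSym z k t).val := Multiset.mem_add.mpr (Or.inl h)
    apply Subtype.ext
    rw [symReplace_val _ _ _ h']
    show x ::ₘ (t.val + Multiset.replicate k z).erase y =
      (symReplace t x y).val + Multiset.replicate k z
    rw [symReplace_val _ _ _ h, Multiset.erase_add_left_pos _ h, Multiset.cons_add]
  · have h' : y ∉ (padSym z k t).val := by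
      intro hmem
      rcases Multiset.mem_add.mp hmem with h1 | h1
      · exact h h1
      · exact hy (Multiset.mem_replicate.mp h1).2
    rw [symReplace_of_notMem _ _ _ h', symReplace_of_notMem _ _ _ h]

/-- The map of polynomial rings induced by padding. -/
noncomputable def Pad (K : Type*) [Field K] (z : σ) (k d : ℕ) :
    MvPolynomial (Sym σ d) K →ₐ[K] MvPolynomial (Sym σ (d + k)) K :=
  MvPolynomial.rename (padSym z k)

theorem Pad_injective : Function.Injective (Pad K z k d) :=
  MvPolynomial.rename_injective _ padSym_injective

theorem Pad_glAct (x y : σ) (hy : y ≠ z) (p : MvPolynomial (Sym σ d) K) :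
    Pad K z k d (glAct K d x y p) = glAct K (d + k) x y (Pad K z k d p) := by
  induction p using MvPolynomial.induction_on with
  | C c =>
    have h1 : glAct K d x y (C c) = 0 := by
      rw [← MvPolynomial.algebraMap_eq]
      exact Derivation.map_algebraMap _ c
    have h2 : glAct K (d + k) x y (Pad K z k d (C c)) = 0 := by
      unfold Pad
      rw [rename_C, ← MvPolynomial.algebraMap_eq]
      exact Derivation.map_algebraMap _ c
    rw [h1, h2, map_zero]
  | add p q hp hq =>
    rw [map_add, map_add, hp, hq, map_add, map_add]
  | mul_X p t hp =>
    have hX : Pad K z k d (glAct K d x y (X t)) = glAct K (d + k) x y (Pad K z k d (X t)) := by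
      unfold Pad glAct
      rw [mkDerivation_X, rename_X, mkDerivation_X, map_smul, rename_X, count_padSym t y hy,
        symReplace_padSym t x y hy]
    rw [Derivation.leibniz, map_add, smul_eq_mul, smul_eq_mul, map_mul, map_mul, hp, hX,
      map_mul, Derivation.leibniz, smul_eq_mul, smul_eq_mul]

end Vale.Agent.Lib.P181
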