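import Vale.Agent.Lib.P181.FHWell
import Vale.Agent.Lib.P181.FHMain

/-!
The polynomial model: `Sym (Sym^b V)` is the polynomial ring in the monomials of degree `b`, and
the Foulkes-Howe map sends the product of the rows of an array to the sum over the row
permutations of the product of the columns.
-/

namespace Vale.Agent.Lib.P181

open Finset MvPolynomial

set_option linter.unusedSectionVars false

variable {K : Type*} [Field K] {σ : Type*} [DecidableEq σ] {a b : ℕ}

/-- The product of the variables in a multiset of variables. -/
noncomputable def symPoly (K : Type*) [Field K] {α : Type*} {n : ℕ} (u : Sym α n) :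
    MvPolynomial α K :=
  (u.val.map X).prod

theorem multiset_prod_X {α : Type*} [DecidableEq α] (M : Multiset α) :
    (M.map (X : α → MvPolynomial α K)).prod = monomial (Multiset.toFinsupp M) 1 := by
  induction M using Multiset.induction_on with
  | empty => simp
  | cons x M ih =>
    rw [Multiset.map_cons, Multiset.prod_cons, ih, ← Multiset.singleton_add,
      Multiset.toFinsupp_add, Multiset.toFinsupp_singleton, X, monomial_mul, one_mul]

theorem symPoly_eq {α : Type*} [DecidableEq α] {n : ℕ} (u : Sym α n) :
    symPoly K u = monomial (Multiset.toFinsupp u.val) 1 :=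
  multiset_prod_X _

theorem symPoly_injective {α : Type*} [DecidableEq α] {n : ℕ} :
    Function.Injective (symPoly K : Sym α n → MvPolynomial α K) := by
  intro u v h
  rw [symPoly_eq, symPoly_eq] at h
  have := MvPolynomial.monomial_left_injective (one_ne_zero (α := K)) h
  exact Subtype.ext (Multiset.toFinsupp.injective this)

theorem symPoly_linearIndependent {α : Type*} [DecidableEq α] {n : ℕ} :
    LinearIndependent K (symPoly K : Sym α n → MvPolynomial α K) := by
  have h := (MvPolynomial.basisMonomials α K).linearIndependent.comp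
    (fun u : Sym α n => Multiset.toFinsupp u.val)
    (fun u v h => Subtype.ext (Multiset.toFinsupp.injective h))
  have heq : (symPoly K : Sym α n → MvPolynomial α K) =
      (MvPolynomial.basisMonomials α K) ∘ (fun u : Sym α n => Multiset.toFinsupp u.val) := by
    funext u
    simp [symPoly_eq]
  rw [heq]
  exact h

/-- The free module on the monomial basis, mapped into the polynomial ring. -/
noncomputable def toPoly (K : Type*) [Field K] {α : Type*} (n : ℕ) :
    (Sym α n →₀ K) →ₗ[K] MvPolynomial α K :=
  Finsupp.linearCombination K (symPoly K)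

theorem toPoly_ker {α : Type*} [DecidableEq α] {n : ℕ} :
    LinearMap.ker (toPoly K (α := α) n) = ⊥ :=
  linearIndependent_iff_ker.mp symPoly_linearIndependent

/-- The product of the rows of an array, a monomial in `Sym (Sym^b V)`. -/
noncomputable def rowPoly (K : Type*) [Field K] (f : Fin a → Fin b → σ) :
    MvPolynomial (Sym σ b) K :=
  ∏ s, X (tupleSym (f s))

theorem rowPoly_eq (f : Fin a → Fin b → σ) : rowPoly K f = symPoly K (rowMonomial f) := by
  unfold rowPoly symPoly rowMonomial
  show _ = (((univ : Finset (Fin a)).val.map fun s => tupleSym (f s)).map X).prod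
  rw [Multiset.map_map]
  rfl

/-- The Foulkes-Howe image of the product of the rows of the array. -/
noncomputable def fhPoly (K : Type*) [Field K] (f : Fin a → Fin b → σ) :
    MvPolynomial (Sym σ a) K :=
  ∑ τ : Fin a → Equiv.Perm (Fin b), rowPoly K (fun j s => f s (τ s j))

theorem toPoly_foulkesHowe (f : Fin a → Fin b → σ) :
    toPoly K b (foulkesHowe K f) = fhPoly K f := by
  unfold foulkesHowe fhPoly toPoly
  rw [map_sum]
  apply Finset.sum_congr rfl
  intro τ _
  rw [Finsupp.linearCombination_single, one_smul, rowPoly_eq]
  rfl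

theorem rowMonomial_of_rowPoly (f g : Fin a → Fin b → σ) (h : rowPoly K f = rowPoly K g) :
    rowMonomial f = rowMonomial g := by
  rw [rowPoly_eq, rowPoly_eq] at h
  exact symPoly_injective h

theorem fhPoly_congr (f g : Fin a → Fin b → σ) (h : rowPoly K f = rowPoly K g) :
    fhPoly K f = fhPoly K g := by
  rw [← toPoly_foulkesHowe, ← toPoly_foulkesHowe,
    foulkesHowe_congr f g (rowMonomial_of_rowPoly f g h)]

theorem fhPoly_linearIndependent [CharZero K] [Fintype σ] {z : σ} {ι : Type*}
    (f : ι → Fin a → Fin b → σ)
    (hinj : Function.Injective fun i => rowPoly K (f i))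
    (hst : ∀ i, (univ.filter fun p : Fin a × Fin b => f i p.1 p.2 ≠ z).card ≤ b) :
    LinearIndependent K fun i => fhPoly K (f i) := by
  have hinj' : Function.Injective fun i => rowMonomial (f i) := by
    intro i j h
    apply hinj
    show rowPoly K (f i) = rowPoly K (f j)
    rw [rowPoly_eq, rowPoly_eq]
    exact congrArg (symPoly K) h
  have h := (foulkesHowe_linearIndependent (K := K) f hinj' hst).map' (toPoly K b) toPoly_ker
  have heq : (fun i => fhPoly K (f i)) = (toPoly K b) ∘ (fun i => foulkesHowe K (f i)) := by
    funext i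
    exact (toPoly_foulkesHowe (f i)).symm
  rw [heq]
  exact h

theorem rowPoly_isHomogeneous (f : Fin a → Fin b → σ) : (rowPoly K f).IsHomogeneous a := by
  have h := IsHomogeneous.prod (univ : Finset (Fin a))
    (fun s => (X (tupleSym (f s)) : MvPolynomial (Sym σ b) K)) (fun _ => 1)
    (fun s _ => isHomogeneous_X K _)
  simpa [rowPoly] using h

theorem fhPoly_isHomogeneous (f : Fin a → Fin b → σ) : (fhPoly K f).IsHomogeneous b := by
  unfold fhPoly
  exact IsHomogeneous.sum _ _ _ (fun τ _ => rowPoly_isHomogeneous _)

theorem exists_monomial_of_rowPoly (f : Fin a → Fin b → σ) :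
    ∃ m : Sym σ b →₀ ℕ, rowPoly K f = monomial m 1 ∧ m.degree = a := by
  refine ⟨_, (rowPoly_eq f).trans (symPoly_eq _), ?_⟩
  have h := rowPoly_isHomogeneous (K := K) f
  rw [(rowPoly_eq f).trans (symPoly_eq _)] at h
  have h2 := h (d := Multiset.toFinsupp (rowMonomial f).val) (by simp)
  rw [Finsupp.degree_eq_weight_one]
  exact h2

theorem degree_of_rowPoly (f : Fin a → Fin b → σ) (m : Sym σ b →₀ ℕ)
    (h : rowPoly K f = monomial m 1) : m.degree = a := by
  obtain ⟨m', h1, h2⟩ := exists_monomial_of_rowPoly (K := K) f
  rw [h] at h1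
  rw [MvPolynomial.monomial_left_injective (one_ne_zero (α := K)) h1]
  exact h2

theorem exists_array (m : Sym σ b →₀ ℕ) (h : m.degree = a) :
    ∃ f : Fin a → Fin b → σ, rowPoly K f = monomial m 1 := by
  have hcard : Multiset.card (Finsupp.toMultiset m) = a := by
    rw [Finsupp.card_toMultiset, ← h]
    rfl
  obtain ⟨D, hD⟩ := exists_tuple (⟨Finsupp.toMultiset m, hcard⟩ : Sym (Sym σ b) a)
  have : ∀ s, ∃ w : Fin b → σ, tupleSym w = D s := fun s => exists_tuple (D s)
  choose f hf using this
  refine ⟨f, ?_⟩
  have hrow : rowMonomial f = ⟨Finsupp.toMultiset m, hcard⟩ := by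
    rw [← hD]
    unfold rowMonomial
    congr 1
    funext s
    exact hf s
  rw [rowPoly_eq, symPoly_eq, hrow]
  simp

end Vale.Agent.Lib.P181
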