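import Vale.Agent.Lib.P181.FHDeriv

/-!
The Foulkes-Howe map as a linear map of polynomial rings; it commutes with the matrix units, and
it is injective on the weight spaces of `Sym^a (Sym^b V)` in which one basis vector has
multiplicity at least `a * b - b`.  Consequence for the spaces of highest weight vectors.
-/

namespace Vale.Agent.Lib.P181

open Finset MvPolynomial

set_option linter.unusedSectionVars false

variable {K : Type*} [Field K] {σ : Type*} [DecidableEq σ] {a b : ℕ}

/-- The Foulkes-Howe image of a monomial of degree `a`; zero in the other degrees. -/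
noncomputable def psiFun (K : Type*) [Field K] {σ : Type*} [DecidableEq σ] (a b : ℕ)
    (m : Sym σ b →₀ ℕ) : MvPolynomial (Sym σ a) K :=
  if h : m.degree = a then fhPoly K (Classical.choose (exists_array (K := K) m h)) else 0

/-- The Foulkes-Howe map on the degree `a` part of `Sym (Sym^b V)`, extended by zero. -/
noncomputable def Psi (K : Type*) [Field K] (σ : Type*) [DecidableEq σ] (a b : ℕ) :
    MvPolynomial (Sym σ b) K →ₗ[K] MvPolynomial (Sym σ a) K :=
  (MvPolynomial.basisMonomials (Sym σ b) K).constr K (psiFun K a b)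

theorem Psi_monomial (m : Sym σ b →₀ ℕ) :
    Psi K σ a b (monomial m 1) = psiFun K a b m := by
  have h := (MvPolynomial.basisMonomials (Sym σ b) K).constr_basis K (psiFun K a b) m
  rw [MvPolynomial.coe_basisMonomials] at h
  exact h

theorem Psi_monomial_ne (m : Sym σ b →₀ ℕ) (h : m.degree ≠ a) :
    Psi K σ a b (monomial m 1) = 0 := by
  rw [Psi_monomial, psiFun, dif_neg h]

theorem Psi_rowPoly (f : Fin a → Fin b → σ) : Psi K σ a b (rowPoly K f) = fhPoly K f := by
  obtain ⟨m, hm, hdeg⟩ := exists_monomial_of_rowPoly (K := K) f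
  rw [hm, Psi_monomial, psiFun, dif_pos hdeg]
  apply fhPoly_congr
  rw [Classical.choose_spec (exists_array (K := K) m hdeg), hm]

theorem Psi_isHomogeneous (p : MvPolynomial (Sym σ b) K) :
    (Psi K σ a b p).IsHomogeneous b := by
  induction p using MvPolynomial.induction_on' with
  | monomial m c =>
    have e : monomial m c = c • monomial m (1 : K) := by
      rw [smul_monomial, smul_eq_mul, mul_one]
    rw [e, map_smul, Psi_monomial]
    apply (MvPolynomial.homogeneousSubmodule _ K b).smul_mem c
    unfold psiFun
    split_ifs with h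
    · exact fhPoly_isHomogeneous _
    · exact MvPolynomial.isHomogeneous_zero _ _ _
  | add p q hp hq =>
    rw [map_add]
    exact hp.add hq

theorem Psi_glAct (x y : σ) (p : MvPolynomial (Sym σ b) K) :
    Psi K σ a b (glAct K b x y p) = glAct K a x y (Psi K σ a b p) := by
  have key : (Psi K σ a b).comp (glAct K b x y).toLinearMap =
      (glAct K a x y).toLinearMap.comp (Psi K σ a b) := by
    apply (MvPolynomial.basisMonomials (Sym σ b) K).ext
    intro m
    rw [MvPolynomial.coe_basisMonomials]
    show Psi K σ a b (glAct K b x y (monomial m 1)) = glAct K a x y (Psi K σ a b (monomial m 1))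
    by_cases h : m.degree = a
    · obtain ⟨f, hf⟩ := exists_array (K := K) m h
      rw [← hf, glAct_rowPoly, map_sum, Psi_rowPoly, ← comm_key]
      apply Finset.sum_congr rfl
      intro p _
      exact Psi_rowPoly _
    · rw [Psi_monomial_ne m h, map_zero]
      obtain ⟨f, hf⟩ := exists_array (K := K) (a := m.degree) m rfl
      rw [← hf, glAct_rowPoly, map_sum]
      apply Finset.sum_eq_zero
      intro p _
      obtain ⟨m', hm', hdeg'⟩ := exists_monomial_of_rowPoly (K := K) (upd f p x)
      rw [hm', Psi_monomial_ne m' (by rw [hdeg']; exact h)]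
  exact LinearMap.congr_fun key p

theorem coeff_of_diag {τ : Type*} (L : MvPolynomial τ K →ₗ[K] MvPolynomial τ K)
    (p : MvPolynomial τ K) (d : (τ →₀ ℕ) → K)
    (h : ∀ m ∈ p.support, L (monomial m 1) = d m • monomial m 1) (m : τ →₀ ℕ) :
    coeff m (L p) = d m * coeff m p := by
  classical
  conv_lhs => rw [← MvPolynomial.support_sum_monomial_coeff p]
  rw [map_sum, coeff_sum]
  have h3 : ∀ m' ∈ p.support, coeff m (L (monomial m' (coeff m' p))) =
      if m' = m then d m * coeff m p else 0 := by
    intro m' hm'
    have e : monomial m' (coeff m' p) = coeff m' p • monomial m' (1 : K) := by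
      rw [smul_monomial, smul_eq_mul, mul_one]
    rw [e, map_smul, h m' hm', smul_smul, coeff_smul, coeff_monomial]
    split_ifs with h1
    · subst h1
      rw [smul_eq_mul]
      ring
    · simp
  rw [Finset.sum_congr rfl h3, Finset.sum_ite_eq']
  split_ifs with h2
  · rfl
  · rw [notMem_support_iff.mp h2, mul_zero]

theorem card_ne_eq_sum [Fintype σ] (f : Fin a → Fin b → σ) (z : σ) :
    (univ.filter fun q : Fin a × Fin b => f q.1 q.2 ≠ z).card =
      ∑ x ∈ univ.erase z, (univ.filter fun q : Fin a × Fin b => f q.1 q.2 = x).card := by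
  rw [Finset.card_eq_sum_card_fiberwise (f := fun q : Fin a × Fin b => f q.1 q.2)
    (t := univ.erase z)]
  · apply Finset.sum_congr rfl
    intro x hx
    congr 1
    ext q
    simp only [mem_filter, mem_univ, true_and]
    constructor
    · rintro ⟨_, h⟩
      exact h
    · intro h
      exact ⟨by rw [h]; exact Finset.ne_of_mem_erase hx, h⟩
  · intro q hq
    simp only [coe_filter, mem_univ, true_and, Set.mem_setOf_eq] at hq
    simp [hq]

theorem Psi_injOn [CharZero K] [Fintype σ] (lam : σ → ℕ) (z : σ)
    (hlam : ∑ x ∈ univ.erase z, lam x ≤ b) (p : MvPolynomial (Sym σ b) K)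
    (hp : p.IsHomogeneous a) (hw : ∀ x, glAct K b x x p = (lam x : K) • p)
    (h0 : Psi K σ a b p = 0) : p = 0 := by
  classical
  have hdeg : ∀ m ∈ p.support, m.degree = a := by
    intro m hm
    rw [Finsupp.degree_eq_weight_one]
    exact hp (mem_support_iff.mp hm)
  have hex : ∀ m : {m // m ∈ p.support}, ∃ f : Fin a → Fin b → σ,
      rowPoly K f = monomial m.1 1 := fun m => exists_array m.1 (hdeg m.1 m.2)
  choose F hF using hex
  have hcount : ∀ (m : {m // m ∈ p.support}) (x : σ),
      (univ.filter fun q : Fin a × Fin b => F m q.1 q.2 = x).card = lam x := by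
    intro m x
    have h1 := coeff_of_diag (glAct K b x x).toLinearMap p
      (fun m' => if h : m' ∈ p.support then
        (((univ.filter fun q : Fin a × Fin b => F ⟨m', h⟩ q.1 q.2 = x).card : ℕ) : K) else 0)
      (by
        intro m' hm'
        rw [dif_pos hm', ← hF ⟨m', hm'⟩]
        exact glAct_diag_rowPoly _ x) m.1
    have h2 : coeff m.1 ((glAct K b x x).toLinearMap p) = (lam x : K) * coeff m.1 p := by
      show coeff m.1 (glAct K b x x p) = _
      rw [hw x, coeff_smul, smul_eq_mul]
    rw [h2, dif_pos m.2] at h1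
    have hne : coeff m.1 p ≠ 0 := mem_support_iff.mp m.2
    have h3 := mul_right_cancel₀ hne h1
    exact_mod_cast h3.symm
  have hst : ∀ m, (univ.filter fun q : Fin a × Fin b => F m q.1 q.2 ≠ z).card ≤ b := by
    intro m
    rw [card_ne_eq_sum, Finset.sum_congr rfl (fun x _ => hcount m x)]
    exact hlam
  have hinj : Function.Injective fun m : {m // m ∈ p.support} => rowPoly K (F m) := by
    intro m m' h
    simp only [hF] at h
    exact Subtype.ext (MvPolynomial.monomial_left_injective (one_ne_zero (α := K)) h)
  have hli := fhPoly_linearIndependent F hinj hst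
  have hsum : Psi K σ a b p = ∑ m : {m // m ∈ p.support}, coeff m.1 p • fhPoly K (F m) := by
    conv_lhs => rw [← MvPolynomial.support_sum_monomial_coeff p]
    rw [map_sum, ← Finset.sum_attach, Finset.univ_eq_attach]
    apply Finset.sum_congr rfl
    intro m _
    have e : monomial m.1 (coeff m.1 p) = coeff m.1 p • monomial m.1 (1 : K) := by
      rw [smul_monomial, smul_eq_mul, mul_one]
    rw [e, map_smul, ← hF m, Psi_rowPoly]
  rw [hsum] at h0
  have hc := Fintype.linearIndependent_iff.mp hli (fun m => coeff m.1 p) h0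
  by_contra hne
  have hsupp : p.support.Nonempty := by
    rw [Finset.nonempty_iff_ne_empty]
    intro h
    exact hne (MvPolynomial.support_eq_empty.mp h)
  obtain ⟨m, hm⟩ := hsupp
  exact (mem_support_iff.mp hm) (hc ⟨m, hm⟩)

theorem hwSpace_finrank_le [CharZero K] (n a b : ℕ) (lam : Fin n → ℕ) (z : Fin n)
    (hlam : ∑ x ∈ univ.erase z, lam x ≤ b) :
    Module.finrank K (hwSpace K n a b lam) ≤ Module.finrank K (hwSpace K n b a lam) := by
  have hmaps : ∀ p ∈ hwSpace K n a b lam, Psi K (Fin n) a b p ∈ hwSpace K n b a lam := by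
    rintro p ⟨hp1, hp2, hp3⟩
    refine ⟨Psi_isHomogeneous p, fun x => ?_, fun x y hxy => ?_⟩
    · rw [← Psi_glAct, hp2 x, map_smul]
    · rw [← Psi_glAct, hp3 x y hxy, map_zero]
  have hinj : Function.Injective ((Psi K (Fin n) a b).restrict hmaps) := by
    rw [← LinearMap.ker_eq_bot, LinearMap.ker_eq_bot']
    intro p hp
    apply Subtype.ext
    have h0 : Psi K (Fin n) a b p.1 = 0 := congrArg Subtype.val hp
    exact Psi_injOn lam z hlam p.1 p.2.1 p.2.2.1 h0
  haveI hfin : Module.Finite K (MvPolynomial.homogeneousSubmodule (Sym (Fin n) a) K b) :=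
    Module.Finite.iff_fg.mpr (MvPolynomial.homogeneousSubmodule_fg _ K b)
  haveI : Module.Finite K (hwSpace K n b a lam) :=
    Submodule.finiteDimensional_of_le (S₂ := MvPolynomial.homogeneousSubmodule (Sym (Fin n) a) K b)
      (fun p hp => hp.1)
  exact LinearMap.finrank_le_finrank_of_injective hinj

end Vale.Agent.Lib.P181
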