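import Vale.Agent.Lib.P181.FHPad

/-!
Monotonicity of the spaces of highest weight vectors in the stable range, and the generalized
(strengthened) Foulkes inequality in the stable range.
-/

namespace Vale.Agent.Lib.P181

open Finset MvPolynomial

set_option linter.unusedSectionVars false

variable {K : Type*} [Field K] {σ : Type*} [DecidableEq σ] {a b c d k : ℕ} {z : σ}

/-- The monomial `z^d`. -/
def zrow (z : σ) (d : ℕ) : Sym σ d :=
  ⟨Multiset.replicate d z, Multiset.card_replicate d z⟩

theorem padSym_zrow : padSym z k (zrow z d) = zrow z (d + k) := by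
  apply Subtype.ext
  show Multiset.replicate d z + Multiset.replicate k z = Multiset.replicate (d + k) z
  rw [Multiset.replicate_add]

theorem tupleSym_const : tupleSym (fun _ : Fin d => z) = zrow z d := by
  apply Subtype.ext
  show (univ : Finset (Fin d)).val.map (fun _ => z) = Multiset.replicate d z
  rw [Multiset.map_const']
  congr 1
  exact (Finset.card_univ (α := Fin d)).trans (Fintype.card_fin d)

theorem glAct_zrow_pow (x y : σ) (hy : y ≠ z) (N : ℕ) :
    glAct K d x y ((X (zrow z d) : MvPolynomial (Sym σ d) K) ^ N) = 0 := by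
  have h1 : glAct K d x y (X (zrow z d) : MvPolynomial (Sym σ d) K) = 0 := by
    unfold glAct
    rw [mkDerivation_X]
    have : Multiset.count y (zrow z d).val = 0 := by
      show Multiset.count y (Multiset.replicate d z) = 0
      rw [Multiset.count_replicate, if_neg (Ne.symm hy)]
    rw [this, Nat.cast_zero, zero_smul]
  rw [Derivation.leibniz_pow, h1, smul_zero, smul_zero]

theorem glAct_zrow_mul (x y : σ) (hy : y ≠ z) (N : ℕ) (q : MvPolynomial (Sym σ d) K) :
    glAct K d x y ((X (zrow z d) : MvPolynomial (Sym σ d) K) ^ N * q) =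
      (X (zrow z d) : MvPolynomial (Sym σ d) K) ^ N * glAct K d x y q := by
  rw [Derivation.leibniz, glAct_zrow_pow x y hy, smul_zero, add_zero, smul_eq_mul]

theorem diag_apply {τ : Type*} (L : MvPolynomial τ K →ₗ[K] MvPolynomial τ K)
    (p : MvPolynomial τ K) (c : K)
    (h : ∀ m ∈ p.support, L (monomial m 1) = c • monomial m 1) : L p = c • p := by
  have hp := MvPolynomial.support_sum_monomial_coeff p
  have h1 : L (∑ m ∈ p.support, monomial m (coeff m p)) =
      c • ∑ m ∈ p.support, monomial m (coeff m p) := by
    rw [map_sum, Finset.smul_sum]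
    apply Finset.sum_congr rfl
    intro m hm
    have e : monomial m (coeff m p) = coeff m p • monomial m (1 : K) := by
      rw [smul_monomial, smul_eq_mul, mul_one]
    rw [e, map_smul, h m hm, smul_comm]
  rw [hp] at h1
  exact h1

theorem euler [Fintype σ] (p : MvPolynomial (Sym σ b) K) (hp : p.IsHomogeneous a) :
    ∑ x : σ, glAct K b x x p = ((a * b : ℕ) : K) • p := by
  have h := diag_apply (∑ x : σ, (glAct K b x x).toLinearMap) p ((a * b : ℕ) : K) (by
    intro m hm
    have hdeg : m.degree = a := by
      rw [Finsupp.degree_eq_weight_one]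
      exact hp (mem_support_iff.mp hm)
    obtain ⟨f, hf⟩ := exists_array (K := K) m hdeg
    rw [LinearMap.sum_apply, ← hf]
    have h2 : ∀ x ∈ (univ : Finset σ), (glAct K b x x).toLinearMap (rowPoly K f) =
        (((univ.filter fun p : Fin a × Fin b => f p.1 p.2 = x).card : ℕ) : K) • rowPoly K f :=
      fun x _ => glAct_diag_rowPoly f x
    rw [Finset.sum_congr rfl h2, ← Finset.sum_smul, ← Nat.cast_sum]
    congr 2
    rw [← Finset.card_eq_sum_card_fiberwise (f := fun q : Fin a × Fin b => f q.1 q.2)
      (s := univ) (t := univ) (fun _ _ => Finset.mem_coe.mpr (mem_univ _))]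
    simp)
  rw [LinearMap.sum_apply] at h
  exact h

theorem weight_count [CharZero K] (lam : σ → ℕ) (p : MvPolynomial (Sym σ b) K)
    (hp : p.IsHomogeneous a) (x : σ) (hw : glAct K b x x p = (lam x : K) • p)
    (m : Sym σ b →₀ ℕ) (hm : m ∈ p.support) (f : Fin a → Fin b → σ)
    (hf : rowPoly K f = monomial m 1) :
    (univ.filter fun q : Fin a × Fin b => f q.1 q.2 = x).card = lam x := by
  classical
  have hdeg : ∀ m ∈ p.support, m.degree = a := by
    intro m hm
    rw [Finsupp.degree_eq_weight_one]
    exact hp (mem_support_iff.mp hm)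
  have hex : ∀ m : {m // m ∈ p.support}, ∃ f : Fin a → Fin b → σ,
      rowPoly K f = monomial m.1 1 := fun m => exists_array m.1 (hdeg m.1 m.2)
  choose F hF using hex
  have h1 := coeff_of_diag (glAct K b x x).toLinearMap p
    (fun m' => if m' = m then
        (((univ.filter fun q : Fin a × Fin b => f q.1 q.2 = x).card : ℕ) : K)
      else if h : m' ∈ p.support then
        (((univ.filter fun q : Fin a × Fin b => F ⟨m', h⟩ q.1 q.2 = x).card : ℕ) : K) else 0)
    (by
      intro m' hm'
      by_cases hmm : m' = m
      · rw [if_pos hmm, hmm, ← hf]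
        exact glAct_diag_rowPoly f x
      · rw [if_neg hmm, dif_pos hm', ← hF ⟨m', hm'⟩]
        exact glAct_diag_rowPoly _ x) m
  have h2 : coeff m ((glAct K b x x).toLinearMap p) = (lam x : K) * coeff m p := by
    show coeff m (glAct K b x x p) = _
    rw [hw, coeff_smul, smul_eq_mul]
  rw [h2, if_pos rfl] at h1
  have hne : coeff m p ≠ 0 := mem_support_iff.mp hm
  have h3 := mul_right_cancel₀ hne h1
  exact_mod_cast h3.symm

theorem card_ne_of_weight [CharZero K] [Fintype σ] (lam : σ → ℕ) (z : σ)
    (p : MvPolynomial (Sym σ b) K) (hp : p.IsHomogeneous a)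
    (hw : ∀ x, x ≠ z → glAct K b x x p = (lam x : K) • p)
    (m : Sym σ b →₀ ℕ) (hm : m ∈ p.support) (f : Fin a → Fin b → σ)
    (hf : rowPoly K f = monomial m 1) :
    (univ.filter fun q : Fin a × Fin b => f q.1 q.2 ≠ z).card = ∑ x ∈ univ.erase z, lam x := by
  rw [card_ne_eq_sum]
  apply Finset.sum_congr rfl
  intro x hx
  exact weight_count lam p hp x (hw x (Finset.ne_of_mem_erase hx)) m hm f hf

theorem rowPoly_eq_monomial (f : Fin a → Fin b → σ) :
    rowPoly K f = monomial (∑ s, Finsupp.single (tupleSym (f s)) 1) 1 := by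
  unfold rowPoly
  rw [MvPolynomial.monomial_sum_one]
  rfl

theorem exists_row_of_mem_support (f : Fin a → Fin b → σ) (m : Sym σ b →₀ ℕ)
    (hf : rowPoly K f = monomial m 1) (t : Sym σ b) (ht : t ∈ m.support) :
    ∃ s, tupleSym (f s) = t := by
  by_contra hcon
  simp only [not_exists] at hcon
  have hm : m = ∑ s, Finsupp.single (tupleSym (f s)) 1 :=
    MvPolynomial.monomial_left_injective (one_ne_zero (α := K))
      (hf.symm.trans (rowPoly_eq_monomial f))
  rw [Finsupp.mem_support_iff, hm, Finsupp.finset_sum_apply] at ht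
  apply ht
  apply Finset.sum_eq_zero
  intro s _
  rw [Finsupp.single_apply, if_neg (hcon s)]

theorem mem_range_Pad [CharZero K] [Fintype σ] (lam : σ → ℕ) (z : σ)
    (hlam : ∑ x ∈ univ.erase z, lam x ≤ d) (p : MvPolynomial (Sym σ (d + k)) K)
    (hp : p.IsHomogeneous a) (hw : ∀ x, x ≠ z → glAct K (d + k) x x p = (lam x : K) • p) :
    ∃ p' : MvPolynomial (Sym σ d) K, Pad K z k d p' = p := by
  apply MvPolynomial.exists_rename_eq_of_vars_subset_range p (padSym z k) padSym_injective
  intro t ht
  rw [Finset.mem_coe, MvPolynomial.mem_vars_iff_mem_support] at ht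
  obtain ⟨m, hm, htm⟩ := ht
  have hdeg : m.degree = a := by
    rw [Finsupp.degree_eq_weight_one]
    exact hp (mem_support_iff.mp hm)
  obtain ⟨f, hf⟩ := exists_array (K := K) m hdeg
  obtain ⟨s, rfl⟩ := exists_row_of_mem_support f m hf t htm
  have hcnt : k ≤ Multiset.count z (tupleSym (f s)).val := by
    rw [count_tupleSym]
    have h1 : (univ.filter fun j => f s j ≠ z).card ≤ d := by
      calc (univ.filter fun j => f s j ≠ z).card
          ≤ (univ.filter fun q : Fin a × Fin (d + k) => f q.1 q.2 ≠ z).card := by
            apply Finset.card_le_card_of_injOn (fun j => (s, j))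
            · intro j hj
              simp only [coe_filter, mem_univ, true_and, Set.mem_setOf_eq] at hj ⊢
              exact hj
            · intro j _ j' _ h
              exact (Prod.mk.inj h).2
        _ = ∑ x ∈ univ.erase z, lam x := card_ne_of_weight lam z p hp hw m hm f hf
        _ ≤ d := hlam
    have h2 : (univ.filter fun j => f s j = z).card + (univ.filter fun j => f s j ≠ z).card =
        d + k := by
      have h := Finset.card_filter_add_card_filter_not (s := (univ : Finset (Fin (d + k))))
        (fun j => f s j = z)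
      rw [Finset.card_univ, Fintype.card_fin] at h
      exact h
    omega
  have hle : Multiset.replicate k z ≤ (tupleSym (f s)).val :=
    Multiset.le_count_iff_replicate_le.mp hcnt
  refine ⟨⟨(tupleSym (f s)).val - Multiset.replicate k z, ?_⟩, ?_⟩
  · rw [Multiset.card_sub hle, (tupleSym (f s)).2, Multiset.card_replicate]
    omega
  · apply Subtype.ext
    show (tupleSym (f s)).val - Multiset.replicate k z + Multiset.replicate k z =
      (tupleSym (f s)).val
    exact tsub_add_cancel_of_le hle

theorem finrank_le_of_rel {M₁ M₂ M₃ : Type*} [AddCommGroup M₁] [Module K M₁]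
    [AddCommGroup M₂] [Module K M₂] [AddCommGroup M₃] [Module K M₃]
    (U : Submodule K M₁) (V : Submodule K M₂) [Module.Finite K V]
    (f : M₁ →ₗ[K] M₃) (g : M₂ →ₗ[K] M₃) (hf : Function.Injective f)
    (hg : Function.Injective g) (h : ∀ p ∈ U, ∃ q ∈ V, f p = g q) :
    Module.finrank K U ≤ Module.finrank K V := by
  obtain ⟨g', hg'⟩ := LinearMap.exists_leftInverse_of_injective g (LinearMap.ker_eq_bot.mpr hg)
  have hT : ∀ p ∈ U, (g'.comp f) p ∈ V := by
    intro p hp
    obtain ⟨q, hq, hpq⟩ := h p hp
    have : (g'.comp f) p = q := by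
      rw [LinearMap.comp_apply, hpq]
      exact LinearMap.congr_fun hg' q
    rw [this]
    exact hq
  have hinj : Function.Injective ((g'.comp f).restrict hT) := by
    rw [← LinearMap.ker_eq_bot, LinearMap.ker_eq_bot']
    intro p hp
    obtain ⟨q, hq, hpq⟩ := h p.1 p.2
    have h0 : (g'.comp f) p.1 = 0 := congrArg Subtype.val hp
    have hq0 : q = 0 := by
      rw [LinearMap.comp_apply, hpq] at h0
      rw [← h0]
      exact (LinearMap.congr_fun hg' q).symm
    rw [hq0, map_zero] at hpq
    exact Subtype.ext (hf (by rw [hpq, Submodule.coe_zero, map_zero]))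
  exact LinearMap.finrank_le_finrank_of_injective hinj

end Vale.Agent.Lib.P181
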