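import Vale.Agent.Lib.P181.FHCoeffB

/-!
The Foulkes-Howe image of a monomial does not depend on the array presenting it.
-/

namespace Vale.Agent.Lib.P181

open Finset

set_option linter.unusedSectionVars false

variable {K : Type*} [Semiring K] {σ : Type*} {a b : ℕ}

theorem exists_perm_of_tupleSym_eq {α : Type*} [DecidableEq α] {n : ℕ} (w w' : Fin n → α)
    (h : tupleSym w = tupleSym w') : ∃ ρ : Equiv.Perm (Fin n), ∀ i, w (ρ i) = w' i :=
  exists_perm_of_map_eq w w' (congrArg Subtype.val h)

theorem colMonomial_rowPerm (f : Fin a → Fin b → σ) (ρ : Equiv.Perm (Fin a)) :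
    colMonomial (fun s j => f (ρ s) j) = colMonomial f := by
  unfold colMonomial
  congr 1
  funext j
  exact tupleSym_comp_perm (fun s => f s j) ρ

theorem foulkesHowe_rowPerm (f : Fin a → Fin b → σ) (ρ : Equiv.Perm (Fin a)) :
    foulkesHowe K (fun s j => f (ρ s) j) = foulkesHowe K f := by
  unfold foulkesHowe
  rw [← Equiv.sum_comp (Equiv.arrowCongr ρ.symm (Equiv.refl (Equiv.Perm (Fin b))))
    (fun τ => Finsupp.single (colMonomial fun i j => f (ρ i) (τ i j)) (1 : K))]
  apply Finset.sum_congr rfl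
  intro τ _
  congr 1
  exact colMonomial_rowPerm (fun s j => f s (τ s j)) ρ

theorem foulkesHowe_perm (f : Fin a → Fin b → σ) (τ : Fin a → Equiv.Perm (Fin b)) :
    foulkesHowe K (fun s j => f s (τ s j)) = foulkesHowe K f := by
  unfold foulkesHowe
  exact Equiv.sum_comp (Equiv.mulLeft τ)
    (fun τ' => Finsupp.single (colMonomial fun i j => f i (τ' i j)) (1 : K))

theorem foulkesHowe_congr [DecidableEq σ] (f g : Fin a → Fin b → σ)
    (h : rowMonomial f = rowMonomial g) : foulkesHowe K f = foulkesHowe K g := by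
  obtain ⟨ρ, hρ⟩ := exists_perm_of_tupleSym_eq (fun s => tupleSym (f s))
    (fun s => tupleSym (g s)) h
  have : ∀ s, ∃ τ : Equiv.Perm (Fin b), ∀ j, f (ρ s) (τ j) = g s j := fun s =>
    exists_perm_of_tupleSym_eq _ _ (hρ s)
  choose τ hτ using this
  have hg : g = fun s j => (fun s j => f (ρ s) j) s (τ s j) := by
    funext s j
    exact (hτ s j).symm
  rw [hg, foulkesHowe_perm, foulkesHowe_rowPerm]

end Vale.Agent.Lib.P181
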