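import Vale.Agent.Lib.P181.Count

/-!
Counting set partitions (`Finpartition`s of a finset) with at most `a` parts, each of size
at most `b`: the number is `cnt b a (card s)`.
-/

namespace Vale.Agent.Lib.P181

open Finset

variable {α : Type*} [DecidableEq α]

/-- set partitions of `s` with at most `a` parts, each of cardinality at most `b` -/
def partSet (s : Finset α) (a b : ℕ) : Finset (Finpartition s) :=
  Finset.univ.filter (fun P : Finpartition s => P.parts.card ≤ a ∧ ∀ B ∈ P.parts, B.card ≤ b)

theorem mem_partSet {s : Finset α} {a b : ℕ} {P : Finpartition s} :
    P ∈ partSet s a b ↔ P.parts.card ≤ a ∧ ∀ B ∈ P.parts, B.card ≤ b := by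
  simp [partSet]

theorem card_partSet_empty (a b : ℕ) : (partSet (∅ : Finset α) a b).card = 1 := by
  have hu : ∀ P : Finpartition (∅ : Finset α), P = Finpartition.empty (Finset α) := by
    intro P
    exact Subsingleton.elim (α := Finpartition (⊥ : Finset α)) P _
  have : partSet (∅ : Finset α) a b = {Finpartition.empty (Finset α)} := by
    ext P
    rw [mem_partSet, Finset.mem_singleton]
    constructor
    · intro _; exact hu P
    · intro h; subst h; simp [Finpartition.empty]
  rw [this, Finset.card_singleton]

theorem card_partSet_zero_of_nonempty {s : Finset α} (hs : s.Nonempty) (b : ℕ) :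
    (partSet s 0 b).card = 0 := by
  rw [Finset.card_eq_zero]
  ext P
  simp only [mem_partSet, Finset.notMem_empty, iff_false, not_and]
  intro h
  have h0 : P.parts = ∅ := Finset.card_eq_zero.mp (Nat.le_zero.mp h)
  have := P.parts_eq_empty_iff.mp h0
  exact absurd this (Finset.nonempty_iff_ne_empty.mp hs)

/-- the fibre of `partSet s (a+1) b` over a prescribed block `insert x T` containing `x` -/
theorem card_fiber {s : Finset α} {x : α} (hx : x ∈ s) (T : Finset α) (hT : T ⊆ s.erase x)
    (a b : ℕ) :
    ((partSet s (a + 1) b).filter (fun P => (P.part x).erase x = T)).card
      = if T.card + 1 ≤ b then (partSet (s.erase x \ T) a b).card else 0 := by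
  have hxT : x ∉ T := fun h => (Finset.mem_erase.mp (hT h)).1 rfl
  have hTs : T ⊆ s := fun y hy => Finset.mem_of_mem_erase (hT hy)
  split_ifs with hb
  · symm
    have hne : insert x T ≠ (⊥ : Finset α) := by
      rw [Finset.bot_eq_empty]; exact Finset.insert_ne_empty x T
    have hdisj : Disjoint (s.erase x \ T) (insert x T) := by
      rw [Finset.disjoint_left]
      intro y hy hy'
      rw [Finset.mem_sdiff, Finset.mem_erase] at hy
      rcases Finset.mem_insert.mp hy' with h | h
      · exact hy.1.1 h
      · exact hy.2 h
    have hsup : (s.erase x \ T) ⊔ insert x T = s := by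
      ext y
      simp only [Finset.sup_eq_union, Finset.mem_union, Finset.mem_sdiff, Finset.mem_erase,
        Finset.mem_insert]
      constructor
      · rintro (⟨⟨_, h⟩, _⟩ | h | h)
        · exact h
        · exact h ▸ hx
        · exact hTs h
      · intro hy
        by_cases h1 : y = x
        · exact Or.inr (Or.inl h1)
        · by_cases h2 : y ∈ T
          · exact Or.inr (Or.inr h2)
          · exact Or.inl ⟨⟨h1, hy⟩, h2⟩
    have hnotmem : ∀ Q : Finpartition (s.erase x \ T), insert x T ∉ Q.parts := by
      intro Q hQ
      have := Q.le hQ (Finset.mem_insert_self x T)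
      rw [Finset.mem_sdiff, Finset.mem_erase] at this
      exact this.1.1 rfl
    apply Finset.card_bij (fun Q _ => Q.extend hne hdisj hsup)
    · intro Q hQ
      rw [mem_partSet] at hQ
      rw [Finset.mem_filter, mem_partSet]
      have hparts : (Q.extend hne hdisj hsup).parts = insert (insert x T) Q.parts := rfl
      refine ⟨⟨?_, ?_⟩, ?_⟩
      · rw [hparts, Finset.card_insert_of_notMem (hnotmem Q)]
        omega
      · intro B hB
        rw [hparts] at hB
        rcases Finset.mem_insert.mp hB with h | h
        · rw [h, Finset.card_insert_of_notMem hxT]; exact hb
        · exact hQ.2 B h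
      · have : (Q.extend hne hdisj hsup).part x = insert x T := by
          apply Finpartition.part_eq_of_mem
          · rw [hparts]; exact Finset.mem_insert_self _ _
          · exact Finset.mem_insert_self x T
        rw [this, Finset.erase_insert hxT]
    · intro Q _ Q' _ h
      have hparts : (Q.extend hne hdisj hsup).parts = (Q'.extend hne hdisj hsup).parts := by
        rw [h]
      have h1 : insert (insert x T) Q.parts = insert (insert x T) Q'.parts := hparts
      apply Finpartition.ext
      have := congrArg (fun F => F.erase (insert x T)) h1
      simp only [Finset.erase_insert (hnotmem Q), Finset.erase_insert (hnotmem Q')] at this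
      exact this
    · intro P hP
      rw [Finset.mem_filter, mem_partSet] at hP
      obtain ⟨⟨hcard, hsize⟩, hpart⟩ := hP
      have hxp : x ∈ P.part x := P.mem_part_self.mpr hx
      have hp : P.part x = insert x T := by
        rw [← hpart, Finset.insert_erase hxp]
      have hpmem : insert x T ∈ P.parts := by
        rw [← hp]; exact P.part_mem.mpr hx
      have hsupR : (P.parts.erase (insert x T)).sup id = s.erase x \ T := by
        have h1 : insert x T ⊔ (P.parts.erase (insert x T)).sup id = s := by
          have := P.sup_parts
          rw [← Finset.insert_erase hpmem, Finset.sup_insert] at this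
          exact this
        have h2 : Disjoint (insert x T) ((P.parts.erase (insert x T)).sup id) := by
          have := P.supIndep (Finset.erase_subset (insert x T) P.parts) hpmem
            (Finset.notMem_erase _ _)
          exact this
        ext y
        rw [Finset.mem_sdiff, Finset.mem_erase]
        constructor
        · intro hy
          have hys : y ∈ s := by
            rw [← h1]; exact Finset.mem_union_right _ hy
          have hyn : y ∉ insert x T := fun h => (Finset.disjoint_left.mp h2) h hy
          rw [Finset.mem_insert, not_or] at hyn
          exact ⟨⟨hyn.1, hys⟩, hyn.2⟩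
        · rintro ⟨⟨hy1, hy2⟩, hy3⟩
          rw [← h1] at hy2
          rcases Finset.mem_union.mp hy2 with h | h
          · rcases Finset.mem_insert.mp h with h' | h'
            · exact absurd h' hy1
            · exact absurd h' hy3
          · exact h
      let Q : Finpartition (s.erase x \ T) :=
        { parts := P.parts.erase (insert x T)
          supIndep := P.supIndep.subset (Finset.erase_subset _ _)
          sup_parts := hsupR
          bot_notMem := fun h => P.bot_notMem (Finset.mem_of_mem_erase h) }
      refine ⟨Q, ?_, ?_⟩
      · rw [mem_partSet]
        refine ⟨?_, ?_⟩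
        · show (P.parts.erase (insert x T)).card ≤ a
          rw [Finset.card_erase_of_mem hpmem]; omega
        · intro B hB
          exact hsize B (Finset.mem_of_mem_erase hB)
      · apply Finpartition.ext
        show insert (insert x T) (P.parts.erase (insert x T)) = P.parts
        exact Finset.insert_erase hpmem
  · rw [Finset.card_eq_zero]
    ext P
    simp only [Finset.mem_filter, mem_partSet, Finset.notMem_empty, iff_false, not_and, and_imp]
    intro _ hsize hpart
    have hxp : x ∈ P.part x := P.mem_part_self.mpr hx
    have hp : P.part x = insert x T := by
      rw [← hpart, Finset.insert_erase hxp]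
    have := hsize (P.part x) (P.part_mem.mpr hx)
    rw [hp, Finset.card_insert_of_notMem hxT] at this
    exact hb this

theorem card_partSet (s : Finset α) (a b : ℕ) : (partSet s a b).card = cnt b a s.card := by
  induction a generalizing s with
  | zero =>
    rcases s.eq_empty_or_nonempty with rfl | hs
    · rw [card_partSet_empty]; simp [cnt]
    · rw [card_partSet_zero_of_nonempty hs]
      have : s.card ≠ 0 := Finset.card_ne_zero.mpr hs
      simp [cnt, this]
  | succ a ih =>
    rcases s.eq_empty_or_nonempty with rfl | hs
    · rw [card_partSet_empty]; simp [cnt]
    · obtain ⟨x, hx⟩ := hs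
      have hcard : s.card = (s.erase x).card + 1 := by
        rw [Finset.card_erase_of_mem hx]
        have : 0 < s.card := Finset.card_pos.mpr ⟨x, hx⟩
        omega
      have hmaps : Set.MapsTo (fun P : Finpartition s => (P.part x).erase x)
          ↑(partSet s (a + 1) b) ↑((s.erase x).powerset) := by
        intro P _
        simp only [Finset.coe_powerset, Set.mem_preimage, Set.mem_powerset_iff, Finset.coe_subset]
        intro y hy
        rw [Finset.mem_erase] at hy ⊢
        exact ⟨hy.1, P.part_subset x hy.2⟩
      rw [Finset.card_eq_sum_card_fiberwise hmaps, hcard]
      have h1 : ∀ T ∈ (s.erase x).powerset,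
          ((partSet s (a + 1) b).filter (fun P => (P.part x).erase x = T)).card
            = (fun j => if j + 1 ≤ b then cnt b a ((s.erase x).card - j) else 0) T.card := by
        intro T hT
        have hT' := Finset.mem_powerset.mp hT
        rw [card_fiber hx T hT' a b]
        simp only
        split_ifs with hb
        · rw [ih, Finset.card_sdiff_of_subset hT']
        · rfl
      rw [Finset.sum_congr rfl h1]
      have h2 := Finset.sum_powerset_apply_card
        (f := fun j => if j + 1 ≤ b then cnt b a ((s.erase x).card - j) else 0) (x := s.erase x)
      rw [h2]
      simp only [cnt, smul_eq_mul]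
      apply Finset.sum_congr rfl
      intro j _
      split_ifs <;> simp

end Vale.Agent.Lib.P181
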