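import Mathlib

namespace Vale.Agent.Lib.P181

/-- The plethysm `h_a[h_b]` of complete homogeneous symmetric polynomials in the variables
`X i`, `i : σ`: the complete homogeneous symmetric polynomial `h_a` (Mathlib's `hsymm`) in the
variables indexed by the monomials of degree `b` (multisets `t : Sym σ b`), evaluated at those
monomials.  It is the character of `Sym^a (Sym^b V)` for `V` with basis indexed by `σ`. -/
noncomputable def hPleth (σ : Type*) [Fintype σ] [DecidableEq σ] (a b : ℕ) : MvPolynomial σ ℤ :=
  MvPolynomial.aeval (fun t : Sym σ b => ((t : Multiset σ).map MvPolynomial.X).prod)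
    (MvPolynomial.hsymm (Sym σ b) ℤ a)

end Vale.Agent.Lib.P181
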